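import Vale.Agent.P207.N3.H319.Dual

/-!
# P207, line N3: the two sides of a closed orbit, complements

`DualIn N N₁ M` of `Dual.lean`. `split_iff`, `tri_iff`, the shape of `N₁` when `N` is not split;
`Nor.conj`: a normalisation composed with a linear map is a normalisation (for the normal form
conjugated by it); `DualIn.exists_conj`: in the split case `M ∘ n'` is a normalisation of the
opposite orbit whose `N.inv` is the map `M ∘ N₁.inv ∘ M⁻¹`.
-/

open Set Filter Topology Metric MeasureTheory InnerProductSpace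
open scoped ContDiff RealInnerProductSpace

set_option linter.unusedSectionVars false

noncomputable section

namespace Vale.Agent.P207.N3.H319

open H790 (NF)

/-- the discriminant -/
def disc (N : NF) : ℝ := tr N.lin ^ 2 - 4 * N.lin.det

theorem disc_tri (μ₁ μ₂ a : ℝ) (k : ℕ) : disc (.tri μ₁ μ₂ a k) = (μ₁ - μ₂) ^ 2 := by
  obtain ⟨s00, s01, s10, s11⟩ := DualIn.en_tri μ₁ μ₂ a k
  unfold disc
  rw [tr_en, det_en, s00, s11, s10]
  ring

theorem disc_cx (c s : ℝ) : disc (.cx c s) = -(4 * s ^ 2) := by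
  obtain ⟨s00, s01, s10, s11⟩ := DualIn.en_cx c s
  unfold disc
  rw [tr_en, det_en, s00, s11, s10, s01]
  ring

theorem tri_iff_disc {N : NF} (h : N.OK) :
    (∃ μ₁ μ₂ a k, N = .tri μ₁ μ₂ a k) ↔ 0 ≤ disc N := by
  cases N with
  | tri μ₁ μ₂ a k =>
    rw [disc_tri]
    exact ⟨fun _ => sq_nonneg _, fun _ => ⟨μ₁, μ₂, a, k, rfl⟩⟩
  | cx c s =>
    rw [disc_cx]
    constructor
    · rintro ⟨_, _, _, _, h'⟩
      exact absurd h' (by simp)
    · intro h'
      exfalso
      have h1 : 0 < s ^ 2 := by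
        have := h.1
        positivity
      linarith

namespace DualIn

variable {N N₁ : NF} {M : E2 ≃L[ℝ] E2}

theorem disc_eq (H : DualIn N N₁ M) : disc N₁ = disc N := by
  unfold disc
  rw [H.tr_eq', H.det_eq']

theorem split_iff (H : DualIn N N₁ M) : N₁.Split ↔ N.Split := by
  unfold H790.NF.Split
  rw [H.m1_eq, H.m2_eq]

theorem tri_iff (H : DualIn N N₁ M) :
    (∃ μ₁ μ₂ a k, N₁ = .tri μ₁ μ₂ a k) ↔ ∃ μ₁ μ₂ a k, N = .tri μ₁ μ₂ a k := by
  rw [tri_iff_disc H.ok₁, tri_iff_disc H.ok, H.disc_eq]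

theorem cx_iff (H : DualIn N N₁ M) : (∃ c s, N₁ = .cx c s) ↔ ∃ c s, N = .cx c s := by
  have key : ∀ N : NF, (∃ c s, N = .cx c s) ↔ ¬ ∃ μ₁ μ₂ a k, N = .tri μ₁ μ₂ a k := by
    intro N
    cases N with
    | tri μ₁ μ₂ a k => simp
    | cx c s => simp
  rw [key, key, H.tri_iff]

/-- the shapes of a normal form -/
theorem shape {N : NF} (h : N.OK) (h1 : ¬ N.Split) :
    (∃ c s, N = .cx c s) ∨ (∃ μ k, N = .tri μ μ 0 k) ∨ (∃ μ a, a ≠ 0 ∧ N = .tri μ μ a 1) ∨
      ∃ μ k, N = .tri μ (-μ) 0 k := by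
  cases N with
  | cx c s => exact Or.inl ⟨c, s, rfl⟩
  | tri μ₁ μ₂ a k =>
    right
    have h2 : ¬ |μ₂| < |μ₁| := h1
    have h3 : |μ₁| = |μ₂| := le_antisymm (not_lt.1 h2) h.2.1
    by_cases ha : a = 0
    · subst ha
      rcases abs_eq_abs.1 h3 with e | e
      · left
        exact ⟨μ₁, k, by rw [e]⟩
      · right
        right
        exact ⟨μ₁, k, by rw [e, neg_neg]⟩
    · right
      left
      obtain ⟨hk, hμ⟩ := h.2.2 ha
      have hk1 : k = 1 := by
        by_contra hk1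
        have hj2 : 1 < k := by omega
        have h4 : |μ₁| = |μ₂| ^ k := by rw [← abs_pow, ← hμ]
        have h5 : |μ₂| ^ 1 < |μ₂| ^ k := pow_lt_pow_right₀ h.1 hj2
        rw [pow_one] at h5
        linarith
      subst hk1
      rw [pow_one] at hμ
      exact ⟨μ₁, a, ha, by rw [hμ]⟩

/-- the reflection case `tri μ (-μ) 0 k` -/
theorem refl {μ : ℝ} {k : ℕ} (H : DualIn (.tri μ (-μ) 0 k) N₁ M) :
    ∃ ν k', (ν = μ ∨ ν = -μ) ∧ N₁ = .tri ν (-ν) 0 k' := by
  have htr := H.tr_eq'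
  have hdet := H.det_eq'
  have hok₁ := H.ok₁
  obtain ⟨t00, t01, t10, t11⟩ := en_tri μ (-μ) 0 k
  simp only [ite_self] at t01
  obtain ⟨ν₁, ν₂, a', j', hN⟩ := H.tri_iff.2 ⟨_, _, _, _, rfl⟩
  subst hN
  obtain ⟨s00, s01, s10, s11⟩ := en_tri ν₁ ν₂ a' j'
  rw [tr_en, tr_en, s00, s11, t00, t11] at htr
  rw [det_en, det_en, s00, s11, s10, t00, t11, t10] at hdet
  have h1 : ν₂ = -ν₁ := by linarith
  subst h1
  have hν : ν₁ ≠ 0 := (H790.NF.ne_of_OK hok₁).1
  have ha : a' = 0 := by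
    by_contra ha
    obtain ⟨hk, hμ⟩ := hok₁.2.2 ha
    have h3 : |ν₁| = |-ν₁| ^ j' := by rw [← abs_pow, ← hμ]
    rw [abs_neg] at h3
    have h0 : 1 < |ν₁| := by
      have := hok₁.1
      rwa [abs_neg] at this
    have hk1 : j' = 1 := by
      by_contra hk1
      have hj2 : 1 < j' := by omega
      have h5 : |ν₁| ^ 1 < |ν₁| ^ j' := pow_lt_pow_right₀ h0 hj2
      rw [pow_one] at h5
      linarith
    subst hk1
    rw [pow_one] at hμ
    apply hν
    linarith
  subst ha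
  refine ⟨ν₁, j', ?_, rfl⟩
  have h4 : (ν₁ - μ) * (ν₁ + μ) = 0 := by linear_combination -hdet
  rcases mul_eq_zero.1 h4 with h | h
  · left
    linarith
  · right
    linarith

/-- Jordan on one side iff Jordan on the other side -/
theorem jordan_iff (H : DualIn N N₁ M) :
    (∃ μ a, a ≠ 0 ∧ N₁ = .tri μ μ a 1) ↔ ∃ μ a, a ≠ 0 ∧ N = .tri μ μ a 1 := by
  constructor
  · rintro ⟨μ, a, ha, hN⟩
    -- `N` is not split and has discriminant `0`
    have h0 : disc N = 0 := by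
      rw [← H.disc_eq, hN, disc_tri]
      ring
    have hs : ¬ N.Split := by
      rw [← H.split_iff, hN]
      exact lt_irrefl |μ|
    rcases shape H.ok hs with ⟨c, s, h⟩ | ⟨ν, k, h⟩ | ⟨ν, b, hb, h⟩ | ⟨ν, k, h⟩
    · exfalso
      have := H.ok
      rw [h, disc_cx] at h0
      rw [h] at this
      have h1 : s ≠ 0 := this.1
      have h2 : 0 < s ^ 2 := by positivity
      linarith
    · exfalso
      subst h
      obtain ⟨j', hj, -⟩ := H.scalar
      rw [hN] at hj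
      injection hj with _ _ h3 _
      exact ha h3
    · exact ⟨ν, b, hb, h⟩
    · exfalso
      have := H.ok
      rw [h] at this
      have h1 := (H790.NF.ne_of_OK this).1
      rw [h, disc_tri] at h0
      have h2 : (ν - -ν) = 0 := pow_eq_zero_iff two_ne_zero |>.1 h0
      apply h1
      linarith
  · rintro ⟨μ, a, ha, hN⟩
    subst hN
    obtain ⟨⟨a', ha', h⟩, -⟩ := H.jordan ha
    exact ⟨μ, a', ha', h⟩

/-- scalar on one side iff scalar on the other side -/
theorem scalar_iff (H : DualIn N N₁ M) :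
    (∃ μ k, N₁ = .tri μ μ 0 k) ↔ ∃ μ k, N = .tri μ μ 0 k := by
  constructor
  · rintro ⟨μ, k, hN⟩
    have h0 : disc N = 0 := by
      rw [← H.disc_eq, hN, disc_tri]
      ring
    have hs : ¬ N.Split := by
      rw [← H.split_iff, hN]
      exact lt_irrefl |μ|
    rcases shape H.ok hs with ⟨c, s, h⟩ | ⟨ν, k, h⟩ | ⟨ν, b, hb, h⟩ | ⟨ν, k, h⟩
    · exfalso
      have := H.ok
      rw [h, disc_cx] at h0
      rw [h] at this
      have h1 : s ≠ 0 := this.1
      have h2 : 0 < s ^ 2 := by positivity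
      linarith
    · exact ⟨ν, k, h⟩
    · exfalso
      subst h
      obtain ⟨⟨a', ha', hj⟩, -⟩ := H.jordan hb
      rw [hN] at hj
      injection hj with _ _ h3 _
      exact ha' h3.symm
    · exfalso
      have := H.ok
      rw [h] at this
      have h1 := (H790.NF.ne_of_OK this).1
      rw [h, disc_tri] at h0
      have h2 : (ν - -ν) = 0 := pow_eq_zero_iff two_ne_zero |>.1 h0
      apply h1
      linarith
  · rintro ⟨μ, k, hN⟩
    subst hN
    obtain ⟨j', hj, -⟩ := H.scalar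
    exact ⟨μ, j', hj⟩

end DualIn

end Vale.Agent.P207.N3.H319

namespace Vale.Agent.P207.N3

open H790 (NF)

variable {Γ X B : Type} [Group Γ] [MetricSpace X] [ProperSpace X] [MulAction Γ X]
  [IsIsometricSMul Γ X] [TopologicalSpace B] [CompactSpace B] [T2Space B] [MulAction Γ B]
  [ContinuousConstSMul Γ B] {L : Leaf Γ X B} {o : Orb L}

namespace H319

/-- **a normalisation composed with a linear map** -/
def conj (n : Nor L o) (M : E2 ≃L[ℝ] E2) (N : NF) (ok : N.OK)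
    (h : ∀ z, M (n.N.fn z) = N.fn (M z)) : Nor L o where
  N := N
  ok := ok
  x η := M (n.x η)
  base := by rw [n.base, map_zero]
  equiv η hη := by rw [n.equiv η hη, h]
  smooth y hy := M.contDiff.comp_contDiffOn (n.smooth y hy)
  inv z := n.inv (M.symm z)
  inv_cont := n.inv_cont.comp M.symm.continuous
  inv_ne z := n.inv_ne _
  inv_right z := by rw [n.inv_right, ContinuousLinearEquiv.apply_symm_apply]
  inv_left η hη := by rw [ContinuousLinearEquiv.symm_apply_apply, n.inv_left η hη]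
  deriv y hy u hu := by
    have h1 : fderiv ℝ (fun u => M (n.x (L.e y u))) u
        = (M : E2 →L[ℝ] E2) ∘L fderiv ℝ (fun u => n.x (L.e y u)) u :=
      M.comp_fderiv
    rw [h1, det_comp]
    refine mul_ne_zero ?_ (n.deriv y hy u hu)
    have h2 : (M.symm : E2 →L[ℝ] E2).det * (M : E2 →L[ℝ] E2).det = 1 := by
      rw [← det_comp, DualIn.symm_comp]
      exact LinearMap.det_id
    exact right_ne_zero_of_mul_eq_one h2

@[simp] theorem conj_N (n : Nor L o) (M : E2 ≃L[ℝ] E2) (N : NF) (ok : N.OK)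
    (h : ∀ z, M (n.N.fn z) = N.fn (M z)) : (conj n M N ok h).N = N := rfl

@[simp] theorem conj_x (n : Nor L o) (M : E2 ≃L[ℝ] E2) (N : NF) (ok : N.OK)
    (h : ∀ z, M (n.N.fn z) = N.fn (M z)) (η : B) : (conj n M N ok h).x η = M (n.x η) := rfl

@[simp] theorem conj_inv (n : Nor L o) (M : E2 ≃L[ℝ] E2) (N : NF) (ok : N.OK)
    (h : ∀ z, M (n.N.fn z) = N.fn (M z)) (z : E2) :
    (conj n M N ok h).inv z = n.inv (M.symm z) := rfl

theorem fn_of_inv {N N₂ : NF} {M : E2 ≃L[ℝ] E2} (hN : N.OK) (hN₂ : N₂.OK)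
    (h : ∀ y, M (N.inv (M.symm y)) = N₂.inv y) (z : E2) : M (N.fn z) = N₂.fn (M z) := by
  have h1 := h (M (N.fn z))
  rw [ContinuousLinearEquiv.symm_apply_apply, H790.NF.inv_fn hN] at h1
  rw [h1, H790.NF.fn_inv hN₂]

/-- **the split case**: `n'' = M ∘ n'` is a normalisation of the orbit of `n'`, with the same
eigenvalues, and `n''.N.inv = M ∘ n'.N.inv ∘ M⁻¹` -/
theorem DualIn.exists_conj {o' : Orb L} (n' : Nor L o') {M : E2 ≃L[ℝ] E2} {μ₁ μ₂ a : ℝ} {j : ℕ}
    (H : DualIn (.tri μ₁ μ₂ a j) n'.N M) (h12 : |μ₂| < |μ₁|) :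
    ∃ (n'' : Nor L o') (a'' : ℝ) (j' : ℕ), n''.N = .tri μ₁ μ₂ a'' j' ∧
      (∀ η, n''.x η = M (n'.x η)) ∧ (∀ z, n''.inv z = n'.inv (M.symm z)) ∧
      (∀ y, n''.N.inv y = M (n'.N.inv (M.symm y))) ∧
      ∃ p q : ℝ, p ≠ 0 ∧ q ≠ 0 ∧ ∀ v : E2, M v = !₂[p * v 0, q * v 1] := by
  obtain ⟨a', j', p, q, hp, hq, hN, hM, hinv⟩ := H.split h12
  have hok : (NF.tri μ₁ μ₂ (a' * p / q ^ j') j').OK := by
    have h1 := H.ok₁
    rw [hN] at h1
    refine ⟨h1.1, h1.2.1, fun h => h1.2.2 fun h0 => h ?_⟩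
    rw [h0, zero_mul, zero_div]
  refine ⟨conj n' M (.tri μ₁ μ₂ (a' * p / q ^ j') j') hok (fn_of_inv n'.ok hok hinv), _, _, rfl,
    fun η => rfl, fun z => rfl, fun y => (hinv y).symm, p, q, hp, hq, hM⟩

end H319

end Vale.Agent.P207.N3
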