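import Vale.Agent.P207.N3.H319.Exp

/-!
# P207, line N3: the two sides of a closed orbit (duality of the normal forms)

`n : Nor L o`, `n' : Nor L o.flip`, `M` a linear change of coordinates, `N' = M ∘ n'.N.inv ∘ M⁻¹`,
the Poincaré map in the straight chart is symplectic: `⟪DN(0) v, DN'(0) w⟫ = ⟪v, w⟫`. Then

* `lam1_eq`, `lam2_eq`, `lam_flip`: the exponents of `o` and `o.flip` are equal;
* `split`: if `n.N = tri μ₁ μ₂ a j`, `|μ₂| < |μ₁|`, then `n'.N = tri μ₁ μ₂ a' j'`, `M` is diagonal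
  and `N' = (tri μ₁ μ₂ a'' j').inv`;
* `scalar`, `jordan`: the same for `tri μ μ 0 j` and `tri μ μ a 1`.
-/

open Set Filter Topology Metric MeasureTheory InnerProductSpace
open scoped ContDiff RealInnerProductSpace

set_option linter.unusedSectionVars false

noncomputable section

namespace Vale.Agent.P207.N3.H319

open H790 (NF)

/-! ### linear algebra -/

/-- entries -/
def en (A : E2 →L[ℝ] E2) (i j : Fin 2) : ℝ := (A (EuclideanSpace.single j 1)) i

theorem en_apply (A : E2 →L[ℝ] E2) (v : E2) (i : Fin 2) :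
    A v i = en A i 0 * v 0 + en A i 1 * v 1 := by
  conv_lhs => rw [H969.vec_eq v]
  rw [map_add, map_smul, map_smul]
  simp only [PiLp.add_apply, PiLp.smul_apply, smul_eq_mul, en]
  ring

theorem en_comp (A C : E2 →L[ℝ] E2) (i j : Fin 2) :
    en (A ∘L C) i j = en A i 0 * en C 0 j + en A i 1 * en C 1 j := by
  have h : en (A ∘L C) i j = (A (C (EuclideanSpace.single j 1))) i := rfl
  rw [h, en_apply]
  rfl

theorem en_ext {A C : E2 →L[ℝ] E2} (h : ∀ i j, en A i j = en C i j) : A = C := by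
  ext v i
  rw [en_apply, en_apply, h, h]

theorem tr_en (A : E2 →L[ℝ] E2) : tr A = en A 0 0 + en A 1 1 := tr_eq A

theorem det_en (A : E2 →L[ℝ] E2) : A.det = en A 0 0 * en A 1 1 - en A 0 1 * en A 1 0 := det_eq A

theorem inner_single (v : E2) (i : Fin 2) : ⟪v, EuclideanSpace.single i (1 : ℝ)⟫ = v i := by
  rw [EuclideanSpace.inner_single_right]
  simp

/-- the transpose -/
theorem en_dual {A A' A'' : E2 →L[ℝ] E2} (hd : ∀ v w, ⟪A v, A' w⟫ = ⟪v, w⟫)
    (h : A' ∘L A'' = ContinuousLinearMap.id ℝ E2) (i j : Fin 2) : en A'' j i = en A i j := by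
  have h1 := hd (EuclideanSpace.single j 1) (A'' (EuclideanSpace.single i 1))
  have h2 : A' (A'' (EuclideanSpace.single i 1)) = EuclideanSpace.single i 1 := by
    have := congrArg (fun f : E2 →L[ℝ] E2 => f (EuclideanSpace.single i 1)) h
    exact this
  rw [h2, inner_single, real_inner_comm, inner_single] at h1
  exact h1.symm

/-- the data of the two sides -/
structure DualIn (N N₁ : NF) (M : E2 ≃L[ℝ] E2) : Prop where
  ok : N.OK
  ok₁ : N₁.OK
  dual : ∀ v w : E2, ⟪fderiv ℝ N.fn 0 v, fderiv ℝ (fun y => M (N₁.inv (M.symm y))) 0 w⟫ = ⟪v, w⟫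

namespace DualIn

variable {N N₁ : NF} {M : E2 ≃L[ℝ] E2}

/-- `M ∘ DN₁(0) ∘ M⁻¹` is the transpose of `DN(0)` -/
theorem en_eq (H : DualIn N N₁ M) (i j : Fin 2) :
    en ((M : E2 →L[ℝ] E2) ∘L N₁.lin ∘L (M.symm : E2 →L[ℝ] E2)) j i = en N.lin i j := by
  have hN : fderiv ℝ N.fn 0 = N.lin := N.hasFDerivAt_zero.fderiv
  have hd := H.dual
  rw [hN] at hd
  refine en_dual hd ?_ i j
  -- the derivative of `N' ∘ N'⁻¹`
  set A' := fderiv ℝ (fun y => M (N₁.inv (M.symm y))) 0 with hA'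
  have h1 : HasFDerivAt (fun y : E2 => M (N₁.fn (M.symm y)))
      ((M : E2 →L[ℝ] E2) ∘L N₁.lin ∘L (M.symm : E2 →L[ℝ] E2)) 0 := by
    have e1 : HasFDerivAt (fun y : E2 => M.symm y) (M.symm : E2 →L[ℝ] E2) 0 :=
      M.symm.hasFDerivAt
    have e2 : HasFDerivAt N₁.fn N₁.lin (M.symm (0 : E2)) := by
      rw [map_zero]
      exact N₁.hasFDerivAt_zero
    exact (M.hasFDerivAt.comp _ (e2.comp 0 e1))
  have h2 : DifferentiableAt ℝ (fun y => M (N₁.inv (M.symm y))) 0 := by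
    have e2 : DifferentiableAt ℝ N₁.inv (M.symm (0 : E2)) :=
      (N₁.contDiff_inv.differentiable (by simp)).differentiableAt
    exact M.differentiableAt.comp _ (e2.comp 0 M.symm.differentiableAt)
  have h3 : HasFDerivAt (fun y => M (N₁.inv (M.symm y))) A' (M (N₁.fn (M.symm (0 : E2)))) := by
    rw [map_zero, H790.NF.fn_zero H.ok₁, map_zero]
    exact h2.hasFDerivAt
  have h4 := h3.comp (0 : E2) h1
  have h5 : ((fun y => M (N₁.inv (M.symm y))) ∘ fun y : E2 => M (N₁.fn (M.symm y))) = id := by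
    funext y
    simp only [Function.comp_apply, ContinuousLinearEquiv.symm_apply_apply, id]
    rw [H790.NF.inv_fn H.ok₁, ContinuousLinearEquiv.apply_symm_apply]
  rw [h5] at h4
  exact h4.unique (hasFDerivAt_id _)

theorem symm_comp : (M.symm : E2 →L[ℝ] E2) ∘L (M : E2 →L[ℝ] E2) = ContinuousLinearMap.id ℝ E2 := by
  ext v : 1
  simp

theorem comp_symm : (M : E2 →L[ℝ] E2) ∘L (M.symm : E2 →L[ℝ] E2) = ContinuousLinearMap.id ℝ E2 := by
  ext v : 1
  simp

theorem tr_eq' (H : DualIn N N₁ M) : tr N₁.lin = tr N.lin := by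
  have h1 : tr N.lin = tr ((M : E2 →L[ℝ] E2) ∘L N₁.lin ∘L (M.symm : E2 →L[ℝ] E2)) := by
    rw [tr_en, tr_en, H.en_eq, H.en_eq]
  rw [h1, tr_comp_comm, ContinuousLinearMap.comp_assoc, symm_comp, ContinuousLinearMap.comp_id]

theorem det_eq' (H : DualIn N N₁ M) : N₁.lin.det = N.lin.det := by
  have h1 : N.lin.det = ((M : E2 →L[ℝ] E2) ∘L N₁.lin ∘L (M.symm : E2 →L[ℝ] E2)).det := by
    rw [det_en, det_en, H.en_eq, H.en_eq, H.en_eq, H.en_eq]
    ring
  have h2 : (M.symm : E2 →L[ℝ] E2).det * (M : E2 →L[ℝ] E2).det = 1 := by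
    rw [← det_comp, symm_comp]
    exact LinearMap.det_id
  rw [h1, det_comp, det_comp]
  linear_combination -N₁.lin.det * h2

/-- the intertwining relation in entries: `M DN₁ = DNᵀ M` -/
theorem rel (H : DualIn N N₁ M) (i j : Fin 2) :
    en (M : E2 →L[ℝ] E2) i 0 * en N₁.lin 0 j + en (M : E2 →L[ℝ] E2) i 1 * en N₁.lin 1 j
      = en N.lin 0 i * en (M : E2 →L[ℝ] E2) 0 j + en N.lin 1 i * en (M : E2 →L[ℝ] E2) 1 j := by
  have h1 : en ((M : E2 →L[ℝ] E2) ∘L N₁.lin) i j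
      = en (((M : E2 →L[ℝ] E2) ∘L N₁.lin ∘L (M.symm : E2 →L[ℝ] E2)) ∘L (M : E2 →L[ℝ] E2)) i j := by
    rw [ContinuousLinearMap.comp_assoc, ContinuousLinearMap.comp_assoc, symm_comp,
      ContinuousLinearMap.comp_id]
  rw [en_comp, en_comp, H.en_eq, H.en_eq] at h1
  exact h1

theorem m1_eq (H : DualIn N N₁ M) : N₁.m1 = N.m1 := by
  rw [← H790.NF.rho_lin H.ok₁, ← H790.NF.rho_lin H.ok]
  unfold rho
  rw [H.tr_eq', H.det_eq']

theorem m1_pos {N : NF} (h : N.OK) : 0 < N.m1 := by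
  cases N with
  | tri μ₁ μ₂ a k =>
    have := h.1
    have := h.2.1
    show 0 < |μ₁|
    linarith
  | cx c s =>
    have := h.2
    show 0 < Real.sqrt (c ^ 2 + s ^ 2)
    exact Real.sqrt_pos.2 (by linarith)

theorem m2_eq (H : DualIn N N₁ M) : N₁.m2 = N.m2 := by
  have h1 : N₁.m1 * N₁.m2 = N.m1 * N.m2 := by
    rw [← H790.NF.det_lin, ← H790.NF.det_lin, H.det_eq']
  rw [H.m1_eq] at h1
  exact mul_left_cancel₀ (m1_pos H.ok).ne' h1

theorem en_tri (μ₁ μ₂ a : ℝ) (k : ℕ) :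
    en (NF.tri μ₁ μ₂ a k).lin 0 0 = μ₁ ∧ en (NF.tri μ₁ μ₂ a k).lin 0 1 = (if k = 1 then a else 0) ∧
    en (NF.tri μ₁ μ₂ a k).lin 1 0 = 0 ∧ en (NF.tri μ₁ μ₂ a k).lin 1 1 = μ₂ := by
  unfold en
  simp only [H790.NF.lin_tri]
  simp

theorem en_cx (c s : ℝ) :
    en (NF.cx c s).lin 0 0 = c ∧ en (NF.cx c s).lin 0 1 = -s ∧
    en (NF.cx c s).lin 1 0 = s ∧ en (NF.cx c s).lin 1 1 = c := by
  unfold en
  simp only [H790.NF.lin_cx]
  simp

theorem apply_diag {p q : ℝ} (h00 : en (M : E2 →L[ℝ] E2) 0 0 = p)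
    (h01 : en (M : E2 →L[ℝ] E2) 0 1 = 0) (h10 : en (M : E2 →L[ℝ] E2) 1 0 = 0)
    (h11 : en (M : E2 →L[ℝ] E2) 1 1 = q) (v : E2) : M v = !₂[p * v 0, q * v 1] := by
  have h1 := en_apply (M : E2 →L[ℝ] E2) v 0
  have h2 := en_apply (M : E2 →L[ℝ] E2) v 1
  rw [h00, h01, zero_mul, add_zero] at h1
  rw [h10, h11, zero_mul, zero_add] at h2
  ext i
  fin_cases i
  · exact h1
  · exact h2

/-- `k = 1` and `a ≠ 0` is impossible in the split case -/
theorem offdiag_zero {μ₁ μ₂ a : ℝ} {k : ℕ} (h : (NF.tri μ₁ μ₂ a k).OK) (h12 : |μ₂| < |μ₁|) :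
    (if k = 1 then a else 0) = 0 := by
  split_ifs with hk
  · by_contra ha
    have h1 := (h.2.2 ha).2
    rw [hk, pow_one] at h1
    rw [h1] at h12
    exact lt_irrefl _ h12
  · rfl

/-- **the split case** -/
theorem split {μ₁ μ₂ a : ℝ} {j : ℕ} (H : DualIn (.tri μ₁ μ₂ a j) N₁ M) (h12 : |μ₂| < |μ₁|) :
    ∃ a' j' p q, p ≠ 0 ∧ q ≠ 0 ∧ N₁ = .tri μ₁ μ₂ a' j' ∧ (∀ v : E2, M v = !₂[p * v 0, q * v 1]) ∧
      ∀ y, M (N₁.inv (M.symm y)) = (NF.tri μ₁ μ₂ (a' * p / q ^ j') j').inv y := by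
  have hm1 := H.m1_eq
  have hm2 := H.m2_eq
  have htr := H.tr_eq'
  have hdet := H.det_eq'
  rw [tr_en, tr_en] at htr
  rw [det_en, det_en] at hdet
  have hrel := H.rel
  have hok₁ := H.ok₁
  have hoff := offdiag_zero H.ok h12
  obtain ⟨t00, t01, t10, t11⟩ := en_tri μ₁ μ₂ a j
  rw [hoff] at t01
  cases N₁ with
  | cx c s =>
    exfalso
    have h1 : (NF.cx c s).m1 = (NF.cx c s).m2 := rfl
    rw [hm1, hm2] at h1
    exact h12.ne' h1
  | tri ν₁ ν₂ a' j' =>
    have h12' : |ν₂| < |ν₁| := by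
      have e1 : |ν₁| = |μ₁| := hm1
      have e2 : |ν₂| = |μ₂| := hm2
      rw [e1, e2]
      exact h12
    have hoff' := offdiag_zero hok₁ h12'
    obtain ⟨s00, s01, s10, s11⟩ := en_tri ν₁ ν₂ a' j'
    rw [hoff'] at s01
    rw [s00, s11, t00, t11] at htr
    rw [s00, s11, s01, t00, t11, t01] at hdet
    have hroot : (ν₁ - μ₁) * (ν₁ - μ₂) = 0 := by linear_combination ν₁ * htr - hdet
    have hν₁ : ν₁ = μ₁ := by
      rcases mul_eq_zero.1 hroot with h | h
      · linarith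
      · exfalso
        have e1 : ν₁ = μ₂ := by linarith
        have e2 : |ν₁| = |μ₁| := hm1
        rw [e1] at e2
        rw [e2] at h12
        exact lt_irrefl _ h12
    have hν₂ : ν₂ = μ₂ := by linarith
    subst hν₁ hν₂
    have hne : ν₁ - ν₂ ≠ 0 := by
      intro h
      have : ν₁ = ν₂ := by linarith
      rw [this] at h12
      exact lt_irrefl _ h12
    have hM01 : en (M : E2 →L[ℝ] E2) 0 1 = 0 := by
      have h := hrel 0 1
      rw [s01, s11, t00, t10] at h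
      have : (ν₁ - ν₂) * en (M : E2 →L[ℝ] E2) 0 1 = 0 := by linear_combination -h
      exact (mul_eq_zero.1 this).resolve_left hne
    have hM10 : en (M : E2 →L[ℝ] E2) 1 0 = 0 := by
      have h := hrel 1 0
      rw [s00, s10, t01, t11] at h
      have : (ν₁ - ν₂) * en (M : E2 →L[ℝ] E2) 1 0 = 0 := by linear_combination h
      exact (mul_eq_zero.1 this).resolve_left hne
    set p := en (M : E2 →L[ℝ] E2) 0 0 with hp
    set q := en (M : E2 →L[ℝ] E2) 1 1 with hq
    have hMv : ∀ v : E2, M v = !₂[p * v 0, q * v 1] := apply_diag rfl hM01 hM10 rfl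
    have hdetM : (M : E2 →L[ℝ] E2).det ≠ 0 := by
      have h2 : (M.symm : E2 →L[ℝ] E2).det * (M : E2 →L[ℝ] E2).det = 1 := by
        rw [← det_comp, symm_comp]
        exact LinearMap.det_id
      exact right_ne_zero_of_mul_eq_one h2
    rw [det_en, hM01, zero_mul, sub_zero] at hdetM
    have hp0 : p ≠ 0 := left_ne_zero_of_mul hdetM
    have hq0 : q ≠ 0 := right_ne_zero_of_mul hdetM
    refine ⟨a', j', p, q, hp0, hq0, rfl, hMv, fun y => ?_⟩
    have hs : M.symm y = !₂[y 0 / p, y 1 / q] := by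
      rw [ContinuousLinearEquiv.symm_apply_eq, hMv]
      ext i
      fin_cases i
      · simp
        field_simp
      · simp
        field_simp
    rw [hs, hMv]
    apply H790.NF.ext2
    · rw [H790.NF.inv_tri_zero]
      simp only [H790.NF.inv_tri_zero, Matrix.cons_val_zero, Matrix.cons_val_one]
      rw [mul_pow, mul_pow, div_pow]
      field_simp
    · rw [H790.NF.inv_tri_one]
      simp only [H790.NF.inv_tri_one, Matrix.cons_val_zero, Matrix.cons_val_one]
      field_simp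

/-- eigenvalues of a normal form with a double eigenvalue -/
theorem double {μ : ℝ} (hok : N₁.OK) (htr : tr N₁.lin = 2 * μ) (hdet : N₁.lin.det = μ ^ 2) :
    ∃ a' j', N₁ = .tri μ μ a' j' ∧ (a' ≠ 0 → j' = 1) := by
  rw [tr_en] at htr
  rw [det_en] at hdet
  cases N₁ with
  | cx c s =>
    exfalso
    obtain ⟨s00, s01, s10, s11⟩ := en_cx c s
    rw [s00, s11] at htr
    rw [s00, s11, s01, s10] at hdet
    have h1 : c = μ := by linarith
    have h2 : s ^ 2 = 0 := by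
      rw [h1] at hdet
      linarith
    exact hok.1 (pow_eq_zero_iff two_ne_zero |>.1 h2)
  | tri ν₁ ν₂ a' j' =>
    obtain ⟨s00, s01, s10, s11⟩ := en_tri ν₁ ν₂ a' j'
    rw [s00, s11] at htr
    rw [s00, s11, s10, mul_zero, sub_zero] at hdet
    have h1 : (ν₁ - ν₂) ^ 2 = 0 := by
      have h2 : (ν₁ - ν₂) ^ 2 = (ν₁ + ν₂) ^ 2 - 4 * (ν₁ * ν₂) := by ring
      rw [h2, htr, hdet]
      ring
    have h2 : ν₁ = ν₂ := by
      have := pow_eq_zero_iff two_ne_zero |>.1 h1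
      linarith
    have h3 : ν₂ = μ := by linarith
    subst h2 h3
    refine ⟨a', j', rfl, fun ha => ?_⟩
    obtain ⟨hj, hμ⟩ := hok.2.2 ha
    by_contra hj1
    have hj2 : 1 < j' := by omega
    have h4 : |ν₁| = |ν₁| ^ j' := by rw [← abs_pow, ← hμ]
    have h5 : |ν₁| ^ 1 < |ν₁| ^ j' := pow_lt_pow_right₀ hok.1 hj2
    rw [pow_one] at h5
    linarith

/-- **the scalar case** -/
theorem scalar {μ : ℝ} {j : ℕ} (H : DualIn (.tri μ μ 0 j) N₁ M) :
    ∃ j', N₁ = .tri μ μ 0 j' ∧ ∀ y, M (N₁.inv (M.symm y)) = (NF.tri μ μ 0 j).inv y := by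
  have htr := H.tr_eq'
  have hdet := H.det_eq'
  obtain ⟨t00, t01, t10, t11⟩ := en_tri μ μ 0 j
  simp only [ite_self] at t01
  obtain ⟨a', j', hN, hj'⟩ := double H.ok₁
    (by rw [htr, tr_en, t00, t11]; ring) (by rw [hdet, det_en, t00, t11, t01]; ring)
  have ha' : a' = 0 := by
    by_contra ha
    have hj := hj' ha
    subst hj
    have hen := H.en_eq
    subst hN
    obtain ⟨s00, s01, s10, s11⟩ := en_tri μ μ a' 1
    simp only [if_true] at s01
    have hrel := H.rel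
    -- `M E₀₁ = 0`
    have h1 : ∀ i, en (M : E2 →L[ℝ] E2) i 0 = 0 := by
      intro i
      have h := hrel i 1
      rw [s01, s11] at h
      have h2 : en (M : E2 →L[ℝ] E2) i 0 * a' = 0 := by
        fin_cases i
        · simp only [Fin.zero_eta] at h ⊢
          rw [t00, t10] at h
          linear_combination h
        · simp only [Fin.mk_one] at h ⊢
          rw [t01, t11] at h
          linear_combination h
      exact (mul_eq_zero.1 h2).resolve_right ha
    have h3 : (M : E2 →L[ℝ] E2).det = 0 := by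
      rw [det_en, h1, h1]
      ring
    have h2 : (M.symm : E2 →L[ℝ] E2).det * (M : E2 →L[ℝ] E2).det = 1 := by
      rw [← det_comp, symm_comp]
      exact LinearMap.det_id
    rw [h3, mul_zero] at h2
    exact zero_ne_one h2
  subst ha'
  subst hN
  refine ⟨j', rfl, fun y => ?_⟩
  have h1 : ∀ (k : ℕ) (y : E2), (NF.tri μ μ 0 k).inv y = μ⁻¹ • y := by
    intro k y
    apply H790.NF.ext2
    · rw [H790.NF.inv_tri_zero]
      simp
    · rw [H790.NF.inv_tri_one]
      simp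
  rw [h1, h1, map_smul, ContinuousLinearEquiv.apply_symm_apply]

/-- the swap of the coordinates -/
def swp (y : E2) : E2 := !₂[y 1, y 0]

/-- **the Jordan case**: in the swapped coordinates `N' = (tri μ μ a 1).inv` -/
theorem jordan {μ a : ℝ} (ha : a ≠ 0) (H : DualIn (.tri μ μ a 1) N₁ M) :
    (∃ a', a' ≠ 0 ∧ N₁ = .tri μ μ a' 1) ∧
      ∀ y, M (N₁.inv (M.symm y)) = swp ((NF.tri μ μ a 1).inv (swp y)) := by
  have htr := H.tr_eq'
  have hdet := H.det_eq'
  obtain ⟨t00, t01, t10, t11⟩ := en_tri μ μ a 1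
  simp only [if_true] at t01
  obtain ⟨a', j', hN, hj'⟩ := double H.ok₁
    (by rw [htr, tr_en, t00, t11]; ring) (by rw [hdet, det_en, t00, t11, t01, t10]; ring)
  have hμ : μ ≠ 0 := (H790.NF.ne_of_OK H.ok).1
  have hrel := H.rel
  subst hN
  have ha' : a' ≠ 0 := by
    rintro rfl
    obtain ⟨s00, s01, s10, s11⟩ := en_tri μ μ 0 j'
    simp only [ite_self] at s01
    have h0 := hrel 1 0
    rw [s00, s10, t01, t11] at h0
    have h1 := hrel 1 1
    rw [s01, s11, t01, t11] at h1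
    have e0 : a * en (M : E2 →L[ℝ] E2) 0 0 = 0 := by linear_combination -h0
    have e1 : a * en (M : E2 →L[ℝ] E2) 0 1 = 0 := by linear_combination -h1
    have h3 : (M : E2 →L[ℝ] E2).det = 0 := by
      rw [det_en, (mul_eq_zero.1 e0).resolve_left ha, (mul_eq_zero.1 e1).resolve_left ha]
      ring
    have h2 : (M.symm : E2 →L[ℝ] E2).det * (M : E2 →L[ℝ] E2).det = 1 := by
      rw [← det_comp, symm_comp]
      exact LinearMap.det_id
    rw [h3, mul_zero] at h2
    exact zero_ne_one h2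
  have hj := hj' ha'
  subst hj
  refine ⟨⟨a', ha', rfl⟩, fun y => ?_⟩
  -- the linear map `M (tri μ μ a' 1) M⁻¹` is the transpose of `tri μ μ a 1`
  have hfn : ∀ (b : ℝ) (v : E2), (NF.tri μ μ b 1).fn v = (NF.tri μ μ b 1).lin v := by
    intro b v
    rw [H790.NF.lin_tri]
    apply H790.NF.ext2
    · rw [H790.NF.fn_tri_zero]
      simp
    · rw [H790.NF.fn_tri_one]
      simp
  have hT : ∀ z : E2, M ((NF.tri μ μ a' 1).fn (M.symm z)) = swp ((NF.tri μ μ a 1).fn (swp z)) := by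
    intro z
    have h1 : M ((NF.tri μ μ a' 1).fn (M.symm z))
        = ((M : E2 →L[ℝ] E2) ∘L (NF.tri μ μ a' 1).lin ∘L (M.symm : E2 →L[ℝ] E2)) z := by
      rw [hfn]
      rfl
    rw [h1]
    apply H790.NF.ext2
    · rw [en_apply, H.en_eq, H.en_eq, t00, t10]
      simp [swp, H790.NF.fn]
    · rw [en_apply, H.en_eq, H.en_eq, t01, t11]
      simp [swp, H790.NF.fn]
      ring
  have hsw : ∀ z : E2, swp (swp z) = z := by
    intro z
    apply H790.NF.ext2 <;> simp [swp]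
  -- apply to `z = swp (inv (swp y))`
  have h2 := hT (swp ((NF.tri μ μ a 1).inv (swp y)))
  rw [hsw, H790.NF.fn_inv H.ok, hsw] at h2
  have h3 : (NF.tri μ μ a' 1).fn (M.symm (swp ((NF.tri μ μ a 1).inv (swp y)))) = M.symm y := by
    rw [ContinuousLinearEquiv.eq_symm_apply]
    exact h2
  rw [← h3, H790.NF.inv_fn H.ok₁, ContinuousLinearEquiv.apply_symm_apply]

end DualIn

end Vale.Agent.P207.N3.H319

namespace Vale.Agent.P207.N3

open H790 (NF)

variable {Γ X B : Type} [Group Γ] [MetricSpace X] [ProperSpace X] [MulAction Γ X]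
  [IsIsometricSMul Γ X] [TopologicalSpace B] [CompactSpace B] [T2Space B] [MulAction Γ B]
  [ContinuousConstSMul Γ B] {L : Leaf Γ X B} {o : Orb L}

namespace H319

/-- **the exponents of the two orientations are equal** -/
theorem lam1_flip {o' : Orb L} (hl : o'.l = o.l) (n : Nor L o) (n' : Nor L o')
    {M : E2 ≃L[ℝ] E2} (hd : ∀ v w : E2, ⟪fderiv ℝ n.N.fn 0 v,
      fderiv ℝ (fun y => M (n'.N.inv (M.symm y))) 0 w⟫ = ⟪v, w⟫) :
    n'.lam1 = n.lam1 ∧ n'.lam2 = n.lam2 ∧ o'.lam = o.lam := by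
  have H : DualIn n.N n'.N M := ⟨n.ok, n'.ok, hd⟩
  have h1 : n'.lam1 = n.lam1 := by
    unfold Nor.lam1
    rw [H.m1_eq, hl]
  refine ⟨h1, ?_, ?_⟩
  · unfold Nor.lam2
    rw [H.m2_eq, hl]
  · rw [← n.lam1_eq, ← n'.lam1_eq, h1]

end H319

end Vale.Agent.P207.N3
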