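import Vale.Agent.P207.N3.H319.Trace

/-!
# P207, line N3: closing orbits `θ_m = k β^m` (1.5) and their exponents

`Clos lam1 lam2 l L c h μ1 μ2 b a t d lm`: the trace of the return map of `θ_m` is
`t m = μ1^m (b₁₁ + e) + a m (b₂₁ + e) + μ2^m (b₂₂ + e)` with exponentially small errors, its
determinant is `d m = (μ1 μ2)^m det (b + e)`, `|d m| = exp (h * lm m)`; here
`|μi| = exp (lami l)`, and the period of `θ_m` is `lm m = m l + L + o(1)`.
-/

open Filter Topology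

noncomputable section

namespace Vale.Agent.P207.N3.H319

/-- the closing formula for the traces -/
structure Clos (lam1 lam2 l L c h μ1 μ2 : ℝ) (b : Fin 2 → Fin 2 → ℝ) (a t d lm : ℕ → ℝ) :
    Prop where
  l_pos : 0 < l
  c_pos : 0 < c
  abs1 : |μ1| = Real.exp (lam1 * l)
  abs2 : |μ2| = Real.exp (lam2 * l)
  per : Tendsto (fun m => lm m - m * l) atTop (𝓝 L)
  form : ∃ C : ℝ, ∃ e : ℕ → Fin 2 → Fin 2 → ℝ, (∀ m i j, |e m i j| ≤ C * Real.exp (-(c * l * m)))
    ∧ ∀ᶠ m in atTop, (t m = μ1 ^ m * (b 0 0 + e m 0 0) + a m * (b 1 0 + e m 1 0)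
      + μ2 ^ m * (b 1 1 + e m 1 1)) ∧
      d m = (μ1 * μ2) ^ m * ((b 0 0 + e m 0 0) * (b 1 1 + e m 1 1)
        - (b 0 1 + e m 0 1) * (b 1 0 + e m 1 0))
  abs_d : ∀ᶠ m in atTop, |d m| = Real.exp (h * lm m)

variable {lam1 lam2 l L c μ1 μ2 h : ℝ} {b : Fin 2 → Fin 2 → ℝ} {a t d lm : ℕ → ℝ}

theorem exp_tendsto {c l : ℝ} (hc : 0 < c) (hl : 0 < l) :
    Tendsto (fun m : ℕ => Real.exp (-(c * l * m))) atTop (𝓝 0) := by
  refine Real.tendsto_exp_neg_atTop_nhds_zero.comp ?_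
  exact tendsto_natCast_atTop_atTop.const_mul_atTop (by positivity)

theorem mul_exp_tendsto {c l : ℝ} (hc : 0 < c) (hl : 0 < l) :
    Tendsto (fun m : ℕ => (m : ℝ) * Real.exp (-(c * l * m))) atTop (𝓝 0) := by
  have hcl : 0 < c * l := by positivity
  have h1 := Real.tendsto_pow_mul_exp_neg_atTop_nhds_zero 1
  have h2 : Tendsto (fun m : ℕ => c * l * (m : ℝ)) atTop atTop :=
    tendsto_natCast_atTop_atTop.const_mul_atTop hcl
  have h3 := (h1.comp h2).const_mul (c * l)⁻¹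
  rw [mul_zero] at h3
  refine h3.congr fun m => ?_
  simp only [Function.comp_apply, pow_one]
  field_simp

namespace Clos

theorem mu1_ne (H : Clos lam1 lam2 l L c h μ1 μ2 b a t d lm) : μ1 ≠ 0 := by
  rw [← abs_pos, H.abs1]
  positivity

theorem mu2_ne (H : Clos lam1 lam2 l L c h μ1 μ2 b a t d lm) : μ2 ≠ 0 := by
  rw [← abs_pos, H.abs2]
  positivity

theorem abs1_pow (H : Clos lam1 lam2 l L c h μ1 μ2 b a t d lm) (m : ℕ) :
    |μ1 ^ m| = Real.exp (lam1 * (m * l)) := by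
  rw [abs_pow, H.abs1, ← Real.exp_nat_mul]
  congr 1
  ring

theorem abs2_pow (H : Clos lam1 lam2 l L c h μ1 μ2 b a t d lm) (m : ℕ) :
    |μ2 ^ m| = Real.exp (lam2 * (m * l)) := by
  rw [abs_pow, H.abs2, ← Real.exp_nat_mul]
  congr 1
  ring

/-- `e^{x lm} / e^{x m l} → e^{x L}` -/
theorem exp_per (H : Clos lam1 lam2 l L c h μ1 μ2 b a t d lm) (x : ℝ) :
    Tendsto (fun m => Real.exp (x * lm m) / Real.exp (x * (m * l))) atTop (𝓝 (Real.exp (x * L))) := by
  have h1 := (Real.continuous_exp.tendsto _).comp (H.per.const_mul x)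
  refine h1.congr fun m => ?_
  simp only [Function.comp_apply]
  rw [← Real.exp_sub]
  congr 1
  ring

theorem lm_atTop (H : Clos lam1 lam2 l L c h μ1 μ2 b a t d lm) : Tendsto lm atTop atTop := by
  have h1 : Tendsto (fun m : ℕ => (m : ℝ) * l) atTop atTop :=
    tendsto_natCast_atTop_atTop.atTop_mul_const H.l_pos
  have h2 := h1.atTop_add H.per
  refine h2.congr fun m => ?_
  ring

/-- the entries of the error tend to zero, also after multiplication with `m` -/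
theorem err {C : ℝ} {e : ℕ → Fin 2 → Fin 2 → ℝ} (hc : 0 < c) (hl : 0 < l)
    (he : ∀ m i j, |e m i j| ≤ C * Real.exp (-(c * l * m))) (i j : Fin 2) :
    Tendsto (fun m => e m i j) atTop (𝓝 0) := by
  have h1 := (exp_tendsto hc hl).const_mul C
  rw [mul_zero] at h1
  exact squeeze_zero_norm (fun m => he m i j) h1

theorem err_mul {C : ℝ} {e : ℕ → Fin 2 → Fin 2 → ℝ} (hc : 0 < c) (hl : 0 < l)
    (he : ∀ m i j, |e m i j| ≤ C * Real.exp (-(c * l * m))) (i j : Fin 2) :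
    Tendsto (fun m : ℕ => (m : ℝ) * e m i j) atTop (𝓝 0) := by
  have h1 := (mul_exp_tendsto hc hl).const_mul C
  rw [mul_zero] at h1
  refine squeeze_zero_norm (fun m => ?_) h1
  rw [norm_mul, Real.norm_natCast]
  calc (m : ℝ) * ‖e m i j‖ ≤ m * (C * Real.exp (-(c * l * m))) :=
        mul_le_mul_of_nonneg_left (he m i j) m.cast_nonneg
    _ = C * (m * Real.exp (-(c * l * m))) := by ring

/-! ### the hyperbolic case `lam2 < lam1` -/

/-- `ρ(θ_m) / |μ1|^m → |b₁₁|` if `lam1 > lam2` and `a m` is small -/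
theorem rad_hyp (H : Clos lam1 lam2 l L c h μ1 μ2 b a t d lm) (h12 : lam2 < lam1)
    (hh : h < 2 * lam1) (ha : Tendsto (fun m => a m / μ1 ^ m) atTop (𝓝 0)) :
    Tendsto (fun m => rad (t m) (d m) / |μ1 ^ m|) atTop (𝓝 |b 0 0|) := by
  obtain ⟨C, e, he, hf⟩ := H.form
  rw [← rad_zero]
  refine tendsto_rad (s := fun m => μ1 ^ m) (fun m => pow_ne_zero m H.mu1_ne) ?_ ?_
  · have h2 : Tendsto (fun m => (μ2 / μ1) ^ m) atTop (𝓝 0) := by
      refine tendsto_pow_atTop_nhds_zero_of_abs_lt_one ?_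
      rw [abs_div, H.abs1, H.abs2, ← Real.exp_sub, Real.exp_lt_one_iff]
      nlinarith [H.l_pos]
    have h3 : Tendsto (fun m => (b 0 0 + e m 0 0) + (a m / μ1 ^ m) * (b 1 0 + e m 1 0)
        + (μ2 / μ1) ^ m * (b 1 1 + e m 1 1)) atTop (𝓝 ((b 0 0 + 0) + 0 * (b 1 0 + 0)
          + 0 * (b 1 1 + 0))) :=
      ((tendsto_const_nhds.add (err H.c_pos H.l_pos he 0 0)).add
        (ha.mul (tendsto_const_nhds.add (err H.c_pos H.l_pos he 1 0)))).add
        (h2.mul (tendsto_const_nhds.add (err H.c_pos H.l_pos he 1 1)))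
    simp only [add_zero, zero_mul] at h3
    refine h3.congr' ?_
    filter_upwards [hf] with m hm
    have := pow_ne_zero m H.mu1_ne
    rw [hm.1, div_pow]
    field_simp
  · have h3 : Tendsto (fun m => Real.exp (h * lm m) / Real.exp (h * (m * l))
        * Real.exp (-((2 * lam1 - h) * l * m))) atTop (𝓝 (Real.exp (h * L) * 0)) :=
      (H.exp_per h).mul (exp_tendsto (by linarith) H.l_pos)
    rw [mul_zero] at h3
    refine squeeze_zero_norm' ?_ h3
    filter_upwards [H.abs_d] with m hm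
    refine le_of_eq ?_
    rw [norm_div, Real.norm_eq_abs, hm, norm_pow, Real.norm_eq_abs, H.abs1_pow,
      ← Real.exp_nat_mul, ← Real.exp_sub, ← Real.exp_sub, ← Real.exp_add]
    congr 1
    push_cast
    ring

/-- `m ↦ a m / μ1 ^ m` is small if `|a m| ≤ C m |μ2|^m`, `lam2 < lam1` -/
theorem a_small (H : Clos lam1 lam2 l L c h μ1 μ2 b a t d lm) (h12 : lam2 < lam1) {C : ℝ}
    (ha : ∀ m : ℕ, |a m| ≤ C * (m * |μ2| ^ m)) : Tendsto (fun m => a m / μ1 ^ m) atTop (𝓝 0) := by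
  have h1 := (mul_exp_tendsto (c := lam1 - lam2) (by linarith) H.l_pos).const_mul C
  rw [mul_zero] at h1
  refine squeeze_zero_norm (fun m => ?_) h1
  rw [norm_div, Real.norm_eq_abs, Real.norm_eq_abs, H.abs1_pow, div_le_iff₀ (Real.exp_pos _)]
  have h2 := ha m
  rw [← abs_pow, H.abs2_pow] at h2
  refine h2.trans (le_of_eq ?_)
  rw [mul_assoc, mul_assoc, ← Real.exp_add]
  congr 3
  ring

/-- from `ρ(θ_m) / |μ^m| → r`: if infinitely often `ρ(θ_m) = exp (x lm)` with `|μ| = exp (x l)`,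
then `r = exp (x L)` -/
theorem eq_of_freq (H : Clos lam1 lam2 l L c h μ1 μ2 b a t d lm) {r : ℝ} {ρ : ℕ → ℝ}
    (hr : Tendsto (fun m => ρ m / |μ1 ^ m|) atTop (𝓝 r))
    (hf : ∃ᶠ m in atTop, ρ m = Real.exp (lam1 * lm m)) : r = Real.exp (lam1 * L) := by
  have h1 := H.exp_per lam1
  by_contra hne
  have h2 : ∀ᶠ m in atTop, ρ m / |μ1 ^ m| - Real.exp (lam1 * lm m) / Real.exp (lam1 * (m * l)) ≠ 0 :=
    (hr.sub h1).eventually_ne (sub_ne_zero.2 hne)
  obtain ⟨m, hm, hm2⟩ := (hf.and_eventually h2).exists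
  apply hm2
  rw [hm, H.abs1_pow, sub_self]

/-- logarithmic limit: `ρ(θ_m) / |μ1^m| → r > 0` implies `log ρ(θ_m) / lm → lam1` -/
theorem log_lim (H : Clos lam1 lam2 l L c h μ1 μ2 b a t d lm) {r : ℝ} {ρ : ℕ → ℝ} (hr0 : 0 < r)
    (hr : Tendsto (fun m => ρ m / |μ1 ^ m|) atTop (𝓝 r)) :
    Tendsto (fun m => Real.log (ρ m) / lm m) atTop (𝓝 lam1) := by
  have h1 : Tendsto (fun m => Real.log (ρ m / |μ1 ^ m|)) atTop (𝓝 (Real.log r)) :=
    (Real.continuousAt_log hr0.ne').tendsto.comp hr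
  have h2 : Tendsto (fun m => lam1 * (m * l - lm m)) atTop (𝓝 (lam1 * (-L))) := by
    have := (H.per.neg).const_mul lam1
    refine this.congr fun m => ?_
    ring
  have h3 : Tendsto (fun m => (Real.log (ρ m / |μ1 ^ m|) + lam1 * (m * l - lm m)) / lm m) atTop
      (𝓝 0) := (h1.add h2).div_atTop H.lm_atTop
  have h4 := h3.add_const lam1
  rw [zero_add] at h4
  refine h4.congr' ?_
  filter_upwards [hr.eventually (eventually_gt_nhds hr0), H.lm_atTop.eventually_gt_atTop 0]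
    with m hm hm2
  have h5 : 0 < |μ1 ^ m| := abs_pos.2 (pow_ne_zero m H.mu1_ne)
  have h6 : 0 < ρ m := by
    by_contra hc
    have := div_nonpos_of_nonpos_of_nonneg (not_lt.1 hc) h5.le
    linarith
  rw [Real.log_div h6.ne' h5.ne', H.abs1_pow, Real.log_exp]
  field_simp
  ring

/-! ### exactness, type S -/

theorem exact_hyp (H : Clos lam1 lam2 l L c h μ1 μ2 b a t d lm) (h12 : lam2 < lam1)
    (hh : h < 2 * lam1) (ha : Tendsto (fun m => a m / μ1 ^ m) atTop (𝓝 0))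
    (hf : ∃ᶠ m in atTop, rad (t m) (d m) = Real.exp (lam1 * lm m)) :
    |b 0 0| = Real.exp (lam1 * L) :=
  H.eq_of_freq (H.rad_hyp h12 hh ha) hf

theorem lim_hyp (H : Clos lam1 lam2 l L c h μ1 μ2 b a t d lm) (h12 : lam2 < lam1)
    (hh : h < 2 * lam1) (ha : Tendsto (fun m => a m / μ1 ^ m) atTop (𝓝 0)) (hb : b 0 0 ≠ 0) :
    Tendsto (fun m => Real.log (rad (t m) (d m)) / lm m) atTop (𝓝 lam1) :=
  H.log_lim (abs_pos.2 hb) (H.rad_hyp h12 hh ha)

/-! ### equal moduli -/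

theorem det_aux {C : ℝ} {e : ℕ → Fin 2 → Fin 2 → ℝ} (hc : 0 < c) (hl : 0 < l)
    (he : ∀ m i j, |e m i j| ≤ C * Real.exp (-(c * l * m))) (b : Fin 2 → Fin 2 → ℝ) :
    Tendsto (fun m => (b 0 0 + e m 0 0) * (b 1 1 + e m 1 1)
        - (b 0 1 + e m 0 1) * (b 1 0 + e m 1 0)) atTop
      (𝓝 (b 0 0 * b 1 1 - b 0 1 * b 1 0)) := by
  have h3 := ((tendsto_const_nhds (x := b 0 0)).add (err hc hl he 0 0)).mul
    ((tendsto_const_nhds (x := b 1 1)).add (err hc hl he 1 1))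
  have h4 := ((tendsto_const_nhds (x := b 0 1)).add (err hc hl he 0 1)).mul
    ((tendsto_const_nhds (x := b 1 0)).add (err hc hl he 1 0))
  have h5 := h3.sub h4
  simpa only [add_zero] using h5

/-- the determinant of `B`: `|det B| = e^{h L}` -/
theorem abs_det (H : Clos lam1 lam2 l L c h μ1 μ2 b a t d lm) (hs : lam1 + lam2 = h) :
    |b 0 0 * b 1 1 - b 0 1 * b 1 0| = Real.exp (h * L) := by
  obtain ⟨C, e, he, hf⟩ := H.form
  have h1 := (det_aux H.c_pos H.l_pos he b).abs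
  have h2 := H.exp_per h
  refine tendsto_nhds_unique h1 (h2.congr' ?_)
  filter_upwards [hf, H.abs_d] with m hm hm2
  rw [← hm2, hm.2, abs_mul, mul_pow, abs_mul, H.abs1_pow, H.abs2_pow, ← Real.exp_add, ← hs]
  have : lam1 * (m * l) + lam2 * (m * l) = (lam1 + lam2) * (m * l) := by ring
  rw [this, mul_div_cancel_left₀ _ (Real.exp_ne_zero _)]

theorem rad_trace (H : Clos lam1 lam2 l L c h μ1 μ1 b a t d lm) {x : ℝ}
    (ht : Tendsto (fun m => t m / μ1 ^ m) atTop (𝓝 x)) :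
    Tendsto (fun m => rad (t m) (d m) / |μ1 ^ m|) atTop
      (𝓝 (rad x (b 0 0 * b 1 1 - b 0 1 * b 1 0))) := by
  obtain ⟨C, e, he, hf⟩ := H.form
  refine tendsto_rad (s := fun m => μ1 ^ m) (fun m => pow_ne_zero m H.mu1_ne) ht ?_
  refine (det_aux H.c_pos H.l_pos he b).congr' ?_
  filter_upwards [hf] with m hm
  have := pow_ne_zero m H.mu1_ne
  rw [hm.2, mul_pow]
  field_simp

theorem exact_trace (H : Clos lam1 lam2 l L c h μ1 μ1 b a t d lm) {x : ℝ}
    (ht : Tendsto (fun m => t m / μ1 ^ m) atTop (𝓝 x))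
    (hf : ∃ᶠ m in atTop, rad (t m) (d m) = Real.exp (lam1 * lm m)) :
    rad x (b 0 0 * b 1 1 - b 0 1 * b 1 0) = Real.exp (lam1 * L) :=
  H.eq_of_freq (H.rad_trace ht) hf

/-- scalar type: the traces converge -/
theorem scalar_aux (H : Clos lam1 lam2 l L c h μ1 μ1 b a t d lm) (ha : ∀ m, a m = 0) :
    Tendsto (fun m => t m / μ1 ^ m) atTop (𝓝 (b 0 0 + b 1 1)) := by
  obtain ⟨C, e, he, hf⟩ := H.form
  have h3 : Tendsto (fun m => (b 0 0 + e m 0 0) + (b 1 1 + e m 1 1)) atTop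
      (𝓝 ((b 0 0 + 0) + (b 1 1 + 0))) :=
    (tendsto_const_nhds.add (err H.c_pos H.l_pos he 0 0)).add
      (tendsto_const_nhds.add (err H.c_pos H.l_pos he 1 1))
  simp only [add_zero] at h3
  refine h3.congr' ?_
  filter_upwards [hf] with m hm
  have := pow_ne_zero m H.mu1_ne
  rw [hm.1, ha m]
  field_simp
  ring

/-- Jordan type: the traces without the growing term converge -/
theorem jordan_aux (H : Clos lam1 lam2 l L c h μ1 μ1 b a t d lm) {τ : ℝ}
    (ha : ∀ m : ℕ, a m = τ * m * μ1 ^ m) :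
    Tendsto (fun m : ℕ => t m / μ1 ^ m - τ * m * b 1 0) atTop (𝓝 (b 0 0 + b 1 1)) := by
  obtain ⟨C, e, he, hf⟩ := H.form
  have h3 : Tendsto (fun m : ℕ => (b 0 0 + e m 0 0) + τ * (m * e m 1 0) + (b 1 1 + e m 1 1)) atTop
      (𝓝 ((b 0 0 + 0) + τ * 0 + (b 1 1 + 0))) :=
    ((tendsto_const_nhds.add (err H.c_pos H.l_pos he 0 0)).add
      ((err_mul H.c_pos H.l_pos he 1 0).const_mul τ)).add
      (tendsto_const_nhds.add (err H.c_pos H.l_pos he 1 1))
  simp only [add_zero, mul_zero] at h3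
  refine h3.congr' ?_
  filter_upwards [hf] with m hm
  have := pow_ne_zero m H.mu1_ne
  rw [hm.1, ha m]
  field_simp
  ring

/-- Jordan type: `B₂₁ = 0` -/
theorem jordan_zero (H : Clos lam1 lam2 l L c h μ1 μ1 b a t d lm) {τ : ℝ} (hτ : τ ≠ 0)
    (ha : ∀ m : ℕ, a m = τ * m * μ1 ^ m)
    (hf : ∃ᶠ m in atTop, rad (t m) (d m) = Real.exp (lam1 * lm m)) :
    b 1 0 = 0 := by
  by_contra hb
  have h1 := H.jordan_aux ha
  have h2 : Tendsto (fun m : ℕ => |τ * b 1 0| * (m : ℝ)) atTop atTop :=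
    tendsto_natCast_atTop_atTop.const_mul_atTop (abs_pos.2 (mul_ne_zero hτ hb))
  have h3 := H.exp_per lam1
  have h4 := h1.abs.eventually (eventually_lt_nhds (lt_add_one |b 0 0 + b 1 1|))
  have h5 := h3.eventually (eventually_lt_nhds (lt_add_one (Real.exp (lam1 * L))))
  have h6 := h2.eventually_gt_atTop (2 * (Real.exp (lam1 * L) + 1) + (|b 0 0 + b 1 1| + 1))
  obtain ⟨m, hm, hm4, hm5, hm6⟩ := (hf.and_eventually (h4.and (h5.and h6))).exists
  have h7 : 0 < |μ1 ^ m| := abs_pos.2 (pow_ne_zero m H.mu1_ne)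
  have h8 := abs_le_two_rad' (t m) (d m)
  rw [hm] at h8
  have h9 : |t m / μ1 ^ m| ≤ 2 * (Real.exp (lam1 * L) + 1) := by
    rw [abs_div, div_le_iff₀ h7]
    refine h8.trans ?_
    rw [H.abs1_pow, mul_assoc]
    refine mul_le_mul_of_nonneg_left ?_ zero_le_two
    rw [div_lt_iff₀ (Real.exp_pos _)] at hm5
    exact hm5.le
  have h10 : |τ * b 1 0| * (m : ℝ) = |τ * m * b 1 0| := by
    rw [abs_mul, abs_mul, abs_mul, Nat.abs_cast]
    ring
  have h11 : |τ * m * b 1 0| ≤ |t m / μ1 ^ m| + |t m / μ1 ^ m - τ * m * b 1 0| := by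
    have := abs_sub (t m / μ1 ^ m) (t m / μ1 ^ m - τ * m * b 1 0)
    rwa [sub_sub_cancel] at this
  linarith

theorem exact_jordan (H : Clos lam1 lam2 l L c h μ1 μ1 b a t d lm) {τ : ℝ} (hτ : τ ≠ 0)
    (ha : ∀ m : ℕ, a m = τ * m * μ1 ^ m) (hs : lam1 + lam2 = h) (hh : lam2 = lam1)
    (hf : ∃ᶠ m in atTop, rad (t m) (d m) = Real.exp (lam1 * lm m)) :
    b 1 0 = 0 ∧ |b 1 1| = Real.exp (lam1 * L) := by
  have h0 := H.jordan_zero hτ ha hf
  refine ⟨h0, ?_⟩
  have h1 := H.jordan_aux ha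
  simp only [h0, mul_zero, sub_zero] at h1
  have h2 := H.exact_trace h1 hf
  have hdet := H.abs_det hs
  rw [h0, mul_zero, sub_zero] at hdet h2
  refine (roots_of_rad (Real.exp_pos _) ?_ h2).2
  rw [hdet, ← Real.exp_nat_mul, ← hs, hh]
  congr 1
  push_cast
  ring

/-- upper bound for the exponents of `θ_m` from an upper bound for the traces -/
theorem upper (H : Clos lam1 lam2 l L c h μ1 μ2 b a t d lm) {x : ℝ}
    (hx : h / 2 ≤ x) {K : ℝ} (ht : ∀ᶠ m : ℕ in atTop, |t m| ≤ K * ((m + 1) * Real.exp (x * (m * l)))) {ε : ℝ}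
    (hε : 0 < ε) :
    ∀ᶠ m in atTop, rad (t m) (d m) ≤ Real.exp ((x + ε) * lm m) := by
  have h1 : Tendsto (fun m : ℕ => ((m : ℝ) * Real.exp (-(ε * l * m)) + Real.exp (-(ε * l * m))))
      atTop (𝓝 (0 + 0)) := (mul_exp_tendsto hε H.l_pos).add (exp_tendsto hε H.l_pos)
  have h2 := (h1.const_mul K).mul ((H.exp_per (x + ε)).inv₀ (Real.exp_ne_zero _))
  have h3 : Tendsto (fun m => Real.exp (-((x + ε - h / 2) * lm m))) atTop (𝓝 0) :=
    Real.tendsto_exp_neg_atTop_nhds_zero.comp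
      (H.lm_atTop.const_mul_atTop (by linarith : 0 < x + ε - h / 2))
  have h4 := h2.add h3
  rw [add_zero, add_zero, mul_zero, zero_mul] at h4
  filter_upwards [h4.eventually (eventually_lt_nhds one_pos), ht, H.abs_d] with m hm htm hmd
  refine (rad_le' _ _).trans ?_
  have hE : 0 < Real.exp ((x + ε) * lm m) := Real.exp_pos _
  have h5 : K * ((m + 1) * Real.exp (x * (m * l)))
      = K * (m * Real.exp (-(ε * l * m)) + Real.exp (-(ε * l * m)))
        * (Real.exp ((x + ε) * lm m) / Real.exp ((x + ε) * (m * l)))⁻¹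
        * Real.exp ((x + ε) * lm m) := by
    rw [inv_div, mul_assoc _ (_ / _), div_mul_cancel₀ _ hE.ne']
    have : Real.exp (x * (m * l)) = Real.exp (-(ε * l * m)) * Real.exp ((x + ε) * (m * l)) := by
      rw [← Real.exp_add]
      congr 1
      ring
    rw [this]
    ring
  have h6 : Real.exp (h * lm m / 2)
      = Real.exp (-((x + ε - h / 2) * lm m)) * Real.exp ((x + ε) * lm m) := by
    rw [← Real.exp_add]
    congr 1
    ring
  rw [hmd, sqrt_exp, h6]
  calc |t m| + Real.exp (-((x + ε - h / 2) * lm m)) * Real.exp ((x + ε) * lm m)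
      ≤ K * ((m + 1) * Real.exp (x * (m * l)))
        + Real.exp (-((x + ε - h / 2) * lm m)) * Real.exp ((x + ε) * lm m) := by linarith
    _ = (K * (m * Real.exp (-(ε * l * m)) + Real.exp (-(ε * l * m)))
        * (Real.exp ((x + ε) * lm m) / Real.exp ((x + ε) * (m * l)))⁻¹
        + Real.exp (-((x + ε - h / 2) * lm m))) * Real.exp ((x + ε) * lm m) := by
        rw [h5]; ring
    _ ≤ 1 * Real.exp ((x + ε) * lm m) := mul_le_mul_of_nonneg_right hm.le hE.le
    _ = Real.exp ((x + ε) * lm m) := one_mul _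

/-- bound for the traces: either `lam1 ≤ x`, or the leading coefficient vanishes -/
theorem trace_le (H : Clos lam1 lam2 l L c h μ1 μ2 b a t d lm) {x A : ℝ} (h2 : lam2 ≤ x)
    (h1 : lam1 ≤ x ∨ (b 0 0 = 0 ∧ lam1 - c ≤ x))
    (ha : ∀ m : ℕ, |a m| ≤ A * (m * |μ2| ^ m)) :
    ∃ K : ℝ, ∀ᶠ m : ℕ in atTop, |t m| ≤ K * ((m + 1) * Real.exp (x * (m * l))) := by
  obtain ⟨C, e, he, hf⟩ := H.form
  have hC : 0 ≤ C := by
    have := (abs_nonneg _).trans (he 0 0 0)
    simpa using this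
  have hA : 0 ≤ A := by
    have h3 := (abs_nonneg _).trans (ha 1)
    rw [Nat.cast_one, one_mul, pow_one] at h3
    exact nonneg_of_mul_nonneg_left h3 (abs_pos.2 H.mu2_ne)
  have hl := H.l_pos
  have hc := H.c_pos
  refine ⟨(|b 0 0| + C) + A * (|b 1 0| + C) + (|b 1 1| + C), ?_⟩
  filter_upwards [hf] with m hm
  have he1 : ∀ i j, |e m i j| ≤ C := fun i j => (he m i j).trans
    (mul_le_of_le_one_right hC (Real.exp_le_one_iff.2 (by
      have : 0 ≤ c * l * m := by positivity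
      linarith)))
  have hm0 : (0 : ℝ) ≤ m := m.cast_nonneg
  set E := Real.exp (x * (m * l)) with hE
  have hE0 : 0 < E := Real.exp_pos _
  have hmu2 : |μ2| ^ m ≤ E := by
    rw [← abs_pow, H.abs2_pow, hE, Real.exp_le_exp]
    nlinarith [mul_nonneg hm0 hl.le]
  have t1 : |μ1 ^ m * (b 0 0 + e m 0 0)| ≤ (|b 0 0| + C) * E := by
    rw [abs_mul, H.abs1_pow]
    rcases h1 with h1 | ⟨hb, h1⟩
    · rw [mul_comm]
      refine mul_le_mul ((abs_add_le _ _).trans (add_le_add_right (he1 0 0) _)) ?_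
        (Real.exp_pos _).le (by positivity)
      rw [hE, Real.exp_le_exp]
      nlinarith [mul_nonneg hm0 hl.le]
    · rw [hb, zero_add, abs_zero, zero_add]
      calc Real.exp (lam1 * (m * l)) * |e m 0 0|
          ≤ Real.exp (lam1 * (m * l)) * (C * Real.exp (-(c * l * m))) :=
            mul_le_mul_of_nonneg_left (he m 0 0) (Real.exp_pos _).le
        _ = C * Real.exp ((lam1 - c) * (m * l)) := by
            rw [mul_left_comm, ← Real.exp_add]
            congr 2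
            ring
        _ ≤ C * E := by
            refine mul_le_mul_of_nonneg_left ?_ hC
            rw [hE, Real.exp_le_exp]
            nlinarith [mul_nonneg hm0 hl.le]
  have t2 : |a m * (b 1 0 + e m 1 0)| ≤ A * (|b 1 0| + C) * (m * E) := by
    rw [abs_mul]
    calc |a m| * |b 1 0 + e m 1 0| ≤ (A * (m * |μ2| ^ m)) * (|b 1 0| + C) :=
          mul_le_mul (ha m) ((abs_add_le _ _).trans (add_le_add_right (he1 1 0) _))
            (abs_nonneg _) (by positivity)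
      _ ≤ (A * (m * E)) * (|b 1 0| + C) := by gcongr
      _ = A * (|b 1 0| + C) * (m * E) := by ring
  have t3 : |μ2 ^ m * (b 1 1 + e m 1 1)| ≤ (|b 1 1| + C) * E := by
    rw [abs_mul, abs_pow, mul_comm]
    exact mul_le_mul ((abs_add_le _ _).trans (add_le_add_right (he1 1 1) _)) hmu2
      (by positivity) (by positivity)
  rw [hm.1]
  have t4 := abs_add_three (μ1 ^ m * (b 0 0 + e m 0 0)) (a m * (b 1 0 + e m 1 0))
    (μ2 ^ m * (b 1 1 + e m 1 1))
  have p1 : 0 ≤ (|b 0 0| + C) * (m * E) := by positivity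
  have p2 : 0 ≤ A * (|b 1 0| + C) * E := by positivity
  have p3 : 0 ≤ (|b 1 1| + C) * (m * E) := by positivity
  nlinarith

theorem lower (H : Clos lam1 lam2 l L c h μ1 μ2 b a t d lm) :
    ∀ᶠ m in atTop, Real.exp (h * lm m / 2) ≤ rad (t m) (d m) := by
  filter_upwards [H.abs_d] with m hm
  have h1 := sqrt_abs_le_rad (t m) (d m)
  rwa [hm, sqrt_exp] at h1

theorem d_ne (H : Clos lam1 lam2 l L c h μ1 μ2 b a t d lm) : ∀ᶠ m in atTop, d m ≠ 0 := by
  filter_upwards [H.abs_d] with m hm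
  rw [← abs_pos, hm]
  exact Real.exp_pos _

/-- the exponents of `θ_m` converge to `h / 2` if `lam1 = lam2 = h / 2` -/
theorem lim_half (H : Clos lam1 lam2 l L c h μ1 μ2 b a t d lm) (hh : h = 2 * lam1)
    (h12 : lam2 ≤ lam1) {A : ℝ} (ha : ∀ m : ℕ, |a m| ≤ A * (m * |μ2| ^ m)) :
    Tendsto (fun m => Real.log (rad (t m) (d m)) / lm m) atTop (𝓝 lam1) := by
  obtain ⟨K, hK⟩ := H.trace_le h12 (Or.inl le_rfl) ha
  rw [tendsto_order]
  constructor
  · intro y hy
    filter_upwards [H.lm_atTop.eventually_gt_atTop 0, H.lower, H.d_ne] with m hm hm2 hm3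
    refine hy.trans_le ?_
    rw [le_div_iff₀ hm, Real.le_log_iff_exp_le (rad_pos' hm3)]
    refine le_trans (le_of_eq ?_) hm2
    rw [hh]
    congr 1
    ring
  · intro y hy
    have h1 := H.upper (x := lam1) (by linarith) hK (ε := (y - lam1) / 2)
      (by linarith)
    filter_upwards [h1, H.lm_atTop.eventually_gt_atTop 0, H.d_ne] with m hm1 hm hm3
    rw [div_lt_iff₀ hm]
    calc Real.log (rad (t m) (d m))
        ≤ Real.log (Real.exp ((lam1 + (y - lam1) / 2) * lm m)) :=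
          Real.log_le_log (rad_pos' hm3) hm1
      _ = (lam1 + (y - lam1) / 2) * lm m := Real.log_exp _
      _ < y * lm m := by
          refine mul_lt_mul_of_pos_right ?_ hm
          linarith

end Clos

end Vale.Agent.P207.N3.H319
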