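import Vale.Agent.P207.N3.H319.P16
import Vale.Agent.P207.N3.H905.ClosT
import Vale.Agent.P207.N3.Top.Logic

/-!
# P207, line N3: the outputs of P16 (Case 1, 4.5) and of 4.6 (i) for the logic of the proof

* `P4b L`: the output of P4b (helper147): forward coordinates and closing for all closed orbits;
* `RegS`, `RegF`: regularity of the homoclinic points (4.2) for the types S, scalar, and F, `r < 2`;
* `case1_out`: the field `case1` of `Outs`;
* `regular_out`: 4.6 (i), for all normal coordinates and all forward coordinates of all closed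
  orbits with the exponent of `o₀`.
-/

open Set Filter Topology Metric MeasureTheory
open scoped ContDiff

set_option linter.unusedSectionVars false

noncomputable section

namespace Vale.Agent.P207.N3

open H790 (NF)

variable {Γ X B : Type} [Group Γ] [MetricSpace X] [ProperSpace X] [MulAction Γ X]
  [IsIsometricSMul Γ X] [TopologicalSpace B] [CompactSpace B] [T2Space B] [MulAction Γ B]
  [ContinuousConstSMul Γ B] [MeasurableSpace B] [BorelSpace B] {L : Leaf Γ X B}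

namespace H319

/-- forward coordinates and the closing formula, with the rate `c` -/
def P4c (L : Leaf Γ X B) (c : ℝ) : Prop :=
  0 < c ∧ ∀ (o : Orb L) (n : Nor L o), Nonempty (H147.Fwd o n.x n.N.fn c) ∧
    ∀ (W : H147.Fwd o n.x n.N.fn c) (k : Γ), k • o.pos ≠ o.neg →
      Nonempty (H147.Closing o n.x n.N.fn c k (W.Bm k))

/-- the output of P4b -/
def P4b (L : Leaf Γ X B) : Prop := ∃ c : ℝ, P4c L c

/-- regularity of the homoclinic points for the types S and scalar -/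
def RegS (A : Area L) (T : Tens L) (k₀ : ℕ) (c : ℝ) : Prop :=
  ∀ (p : Typed A T k₀) (W : H147.Fwd p.o p.t.n.x p.t.n.N.fn c) (k : Γ),
    (p.t.IsS ∨ p.t.IsC) → k • p.o.pos ≠ p.o.neg →
    ∃ s : ℝ, s ≠ 0 ∧ ∀ v : E2, (W.Bm k v) p.t.i = s * v p.t.i

/-- regularity of the homoclinic points for the type F with `r < 2` -/
def RegF (A : Area L) (T : Tens L) (k₀ : ℕ) (c : ℝ) : Prop :=
  ∀ (p : Typed A T k₀) (W : H147.Fwd p.o p.t.n.x p.t.n.N.fn c) (k : Γ),
    p.t.IsF → p.t.n.lam1 < 2 * p.t.n.lam2 → k • p.o.pos ≠ p.o.neg →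
    (W.Bm k (EuclideanSpace.single 0 1)) 0 ≠ 0

/-- closing data from the closing formula -/
theorem exists_closeT (A : Area L) {c : ℝ} (h4 : P4c L c) {o : Orb L} (n : Nor L o)
    (W : H147.Fwd o n.x n.N.fn c) (k : Γ) {μ₁ μ₂ a : ℝ} {j : ℕ} (hk : k • o.pos ≠ o.neg)
    (hN : n.N = .tri μ₁ μ₂ a j) : Nonempty (CloseT A n c k μ₁ μ₂ a j (W.Bm k)) := by
  obtain ⟨Z⟩ := (h4.2 o n).2 W k hk
  obtain ⟨a', t, d, lm, h1, h2, h3, h5, h6⟩ := H905.exists_clos A n hN h4.1 Z
  exact ⟨⟨t, d, lm, a', h1, h2, h3, h5, h6⟩⟩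

variable {A : Area L} {T : Tens L}

/-- **the field `case1` of `Outs`** -/
theorem case1_out (h4 : P4b L) (hReg : ∀ k₀, Rough T k₀ → ∀ c > 0, RegS A T k₀ c) :
    ∀ k₀, Rough T k₀ → Types A T k₀ → ((∃ p : Typed A T k₀, p.Special) → FV A T k₀) →
      ∀ p : Typed A T k₀, p.t.IsF := by
  intro k₀ hR hT hFV
  obtain ⟨c, h4⟩ := h4
  exact case1 hT hFV (fun p => (h4.2 p.o p.t.n).1)
    (fun p W k _ _ _ _ hk hN => exists_closeT A h4 p.t.n W k hk hN) (hReg k₀ hR c h4.1)

/-! ### the regularity of a homoclinic is intrinsic -/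

theorem CloseT.θ_β {o : Orb L} {n : Nor L o} {c : ℝ} {k : Γ} {μ₁ μ₂ a : ℝ} {j : ℕ}
    {Bk : E2 →L[ℝ] E2} (H : CloseT A n c k μ₁ μ₂ a j Bk) :
    ∀ᶠ m in atTop, (H.θ m).β = k * o.β ^ m := by
  filter_upwards [H.orb] with m hm
  unfold θ
  rw [dif_pos hm]
  exact hm.choose_spec.1

/-- if one of two closed orbits `o`, `o'` (`β' = β` or `β' = β²`) with the same ends has `B₁₁ ≠ 0`
at `k`, the other has `B₁₁ ≠ 0` too -/
theorem regular_of {o o' : Orb L} (hβ : o'.β = o.β ∨ o'.β = o.β * o.β) {n : Nor L o}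
    {n' : Nor L o'} {c c' : ℝ} {k : Γ} {μ₁ μ₂ a μ₁' μ₂' a' : ℝ} {j j' : ℕ}
    {M M' : E2 →L[ℝ] E2} (H : CloseT A n c k μ₁ μ₂ a j M) (H' : CloseT A n' c' k μ₁' μ₂' a' j' M')
    (hs : n.lam2 < n.lam1) (hs' : n'.lam2 < n'.lam1) (hM' : bm M' 0 0 ≠ 0) : bm M 0 0 ≠ 0 := by
  intro hM
  have hlam : o'.lam = o.lam := by
    rcases hβ with h | h
    · exact Orb.lam_unique o o' h
    · rw [Orb.lam_unique o.sqr o' h, Orb.lam_sqr]
  have hsum := n.sum A
  have hc := H.clos.c_pos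
  have hlt : max (A.h / 2) (n.lam1 - c) < n.lam1 := max_lt (by linarith) (by linarith)
  set x := max (A.h / 2) (n.lam1 - c) with hx
  have h1 := H.irregular hM (x := x) (le_max_left _ _) (le_max_right _ _)
    (ε := (n.lam1 - x) / 2) (by linarith)
  have h2 := (H'.lim_hyp hs' hM').eventually
    (eventually_gt_nhds (show x + (n.lam1 - x) / 2 < o'.lam by
      rw [hlam, ← n.lam1_eq]
      linarith))
  rcases hβ with h | h
  · obtain ⟨m, m1, m2, m3, m4⟩ := (h1.and (h2.and (H.θ_β.and H'.θ_β))).exists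
    have h5 : (H'.θ m).lam = (H.θ m).lam := Orb.lam_unique _ _ (by rw [m3, m4, h])
    linarith
  · have ht : Tendsto (fun m : ℕ => 2 * m) atTop atTop :=
      tendsto_id.const_mul_atTop' two_pos
    obtain ⟨m, m1, m2, m3, m4⟩ :=
      ((ht.eventually h1).and (h2.and ((ht.eventually H.θ_β).and H'.θ_β))).exists
    have h5 : (H'.θ m).lam = (H.θ (2 * m)).lam :=
      Orb.lam_unique _ _ (by rw [m3, m4, h, pow_mul, pow_two])
    linarith

/-- **4.6 (i)**: there is a closed orbit `o₀` such that all homoclinics of all closed orbits with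
the same exponent are regular, for all normal and all forward coordinates -/
theorem regular_out {c : ℝ} (h4 : P4c L c) {k₀ : ℕ} (hReg : RegF A T k₀ c) (o : Orb L)
    (hT : Types A T k₀) (hF : ∀ p : Typed A T k₀, p.t.IsF) :
    ∃ o₀ : Orb L, ∀ o : Orb L, o.lam = o₀.lam → ∀ (n : Nor L o)
      (W : H147.Fwd o n.x n.N.fn c) (k : Γ), k • o.pos ≠ o.neg →
      (W.Bm k (EuclideanSpace.single 0 1)) 0 ≠ 0 := by
  have hsplit : ∀ (o : Orb L) (n : Nor L o), n.lam2 < n.lam1 := by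
    intro o n
    obtain ⟨q, hq, -⟩ := hT o
    have h1 := lam_of_split q (hF q).1
    rw [typed_lam o q hq, ← n.lam1_eq] at h1
    linarith [n.sum A]
  obtain ⟨o₀, h₀⟩ := regular h4.1 o hT hF
    (fun p W k _ _ _ _ hk hN => exists_closeT A h4 p.t.n W k hk hN)
    (fun p W k h1 h2 hk => hReg p W k h1 h2 hk)
  refine ⟨o₀, fun o ho n W k hk => ?_⟩
  obtain ⟨q, hq, hqx⟩ := hT o
  have hql : q.o.lam = o₀.lam := by rw [typed_lam o q hq, ho]
  have hkq : k • q.o.pos ≠ q.o.neg := by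
    unfold Orb.pos Orb.neg at hk ⊢
    rw [hqx]
    exact hk
  obtain ⟨W'⟩ := (h4.2 q.o q.t.n).1
  obtain ⟨μ₁, μ₂, a, j, hN⟩ := tri_of_split (n.split_iff_lam.2 (hsplit o n))
  obtain ⟨μ₁', μ₂', a', j', hN'⟩ := tri_of_split (hF q).1
  obtain ⟨H⟩ := exists_closeT A h4 n W k hk hN
  obtain ⟨H'⟩ := exists_closeT A h4 q.t.n W' k hkq hN'
  exact regular_of hq H H' (hsplit o n) (hsplit q.o q.t.n) (h₀ q hql W' k hkq)

end H319

end Vale.Agent.P207.N3
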