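import Vale.Agent.P207.N3.H319.Exp
import Vale.Agent.P207.N3.H319.Close
import Vale.Agent.P207.N3.H969.OfLin
import Vale.Agent.P207.N3.H969.LineFalse
import Vale.Agent.P207.N3.H310.Fw

/-!
# P207, line N3, package P16: Case 1 (4.5) and 4.6 (i)

* `CloseT`: closing data of `θ_m = k β^m` at a closed orbit with real normal form (output of
  helper905 from the structure `Closing` of helper147);
* `choice`: if `p` is not of type F, then every sequence of closed orbits whose exponents converge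
  to the exponent of `p` has eventually the same exponents;
* `case1`: all closed orbits are of type F;
* `regular`: 4.6 (i).
-/

open Set Filter Topology Metric MeasureTheory
open scoped ContDiff

set_option linter.unusedSectionVars false

noncomputable section

namespace Vale.Agent.P207.N3

open H790 (NF)

variable {Γ X B : Type} [Group Γ] [MetricSpace X] [ProperSpace X] [MulAction Γ X]
  [IsIsometricSMul Γ X] [TopologicalSpace B] [CompactSpace B] [T2Space B] [MulAction Γ B]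
  [ContinuousConstSMul Γ B] [MeasurableSpace B] [BorelSpace B] {L : Leaf Γ X B}

namespace H319

/-- the matrix of an endomorphism of the plane -/
def bm (M : E2 →L[ℝ] E2) : Fin 2 → Fin 2 → ℝ := fun i j => (M (EuclideanSpace.single j 1)) i

/-- closing data of `θ_m = k β^m` at the closed orbit `o` with normal coordinate `n`,
`n.N = tri μ₁ μ₂ a j` -/
structure CloseT (A : Area L) {o : Orb L} (n : Nor L o) (c : ℝ) (k : Γ) (μ₁ μ₂ a : ℝ) (j : ℕ)
    (Bk : E2 →L[ℝ] E2) where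
  t : ℕ → ℝ
  d : ℕ → ℝ
  lm : ℕ → ℝ
  a' : ℕ → ℝ
  clos : Clos n.lam1 n.lam2 o.l (L.lv (L.hol o.neg (k • o.x)) - L.lv o.x) c A.h μ₁ μ₂ (bm Bk)
    a' t d lm
  a_le : ∃ A' : ℝ, ∀ m : ℕ, |a' m| ≤ A' * (m * |μ₂| ^ m)
  a_zero : a = 0 → ∀ m, a' m = 0
  a_one : j = 1 → ∀ m : ℕ, a' m = a / μ₁ * m * μ₁ ^ m
  orb : ∀ᶠ m in atTop, ∃ o' : Orb L, o'.β = k * o.β ^ m ∧ o'.l = lm m ∧
    rho o'.E = rad (t m) (d m)

namespace CloseT

variable {A : Area L} {o : Orb L} {n : Nor L o} {c : ℝ} {k : Γ} {μ₁ μ₂ a : ℝ} {j : ℕ}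
  {Bk : E2 →L[ℝ] E2}

/-- the sequence of closing orbits -/
def θ (H : CloseT A n c k μ₁ μ₂ a j Bk) (m : ℕ) : Orb L := by
  classical
  exact if h : ∃ o' : Orb L, o'.β = k * o.β ^ m ∧ o'.l = H.lm m ∧
    rho o'.E = rad (H.t m) (H.d m) then h.choose else o

theorem θ_lam (H : CloseT A n c k μ₁ μ₂ a j Bk) :
    ∀ᶠ m in atTop, (H.θ m).lam = Real.log (rad (H.t m) (H.d m)) / H.lm m := by
  filter_upwards [H.orb] with m hm
  have h1 : (H.θ m).l = H.lm m ∧ rho (H.θ m).E = rad (H.t m) (H.d m) := by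
    unfold θ
    rw [dif_pos hm]
    exact hm.choose_spec.2
  unfold Orb.lam
  rw [h1.1, h1.2]

theorem rad_freq (H : CloseT A n c k μ₁ μ₂ a j Bk)
    (hev : ∀ᶠ m in atTop, (H.θ m).lam = o.lam) :
    ∃ᶠ m in atTop, rad (H.t m) (H.d m) = Real.exp (n.lam1 * H.lm m) := by
  refine Filter.Eventually.frequently ?_
  filter_upwards [hev, H.θ_lam, H.clos.lm_atTop.eventually_gt_atTop 0, H.clos.d_ne]
    with m h1 h2 h3 h4
  rw [h1, ← n.lam1_eq] at h2
  rw [h2, div_mul_cancel₀ _ h3.ne', Real.exp_log (rad_pos' h4)]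

/-- the exponents of `θ_m` converge, hyperbolic case -/
theorem lim_hyp (H : CloseT A n c k μ₁ μ₂ a j Bk) (h12 : n.lam2 < n.lam1) (hb : bm Bk 0 0 ≠ 0) :
    Tendsto (fun m => (H.θ m).lam) atTop (𝓝 o.lam) := by
  obtain ⟨A', hA'⟩ := H.a_le
  have hs := n.sum A
  have key := H.clos.lim_hyp h12 (by linarith) (H.clos.a_small h12 hA') hb
  rw [n.lam1_eq] at key
  refine key.congr' ?_
  filter_upwards [H.θ_lam] with m hm
  exact hm.symm

/-- the exponents of `θ_m` converge, equal moduli -/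
theorem lim_half (H : CloseT A n c k μ₁ μ₂ a j Bk) (h12 : n.lam2 = n.lam1) :
    Tendsto (fun m => (H.θ m).lam) atTop (𝓝 o.lam) := by
  obtain ⟨A', hA'⟩ := H.a_le
  have hs := n.sum A
  have key := H.clos.lim_half (by linarith) h12.le hA'
  rw [n.lam1_eq] at key
  refine key.congr' ?_
  filter_upwards [H.θ_lam] with m hm
  exact hm.symm

/-- an upper bound for the exponents of `θ_m` at an irregular homoclinic (`B₁₁ = 0`) -/
theorem irregular (H : CloseT A n c k μ₁ μ₂ a j Bk) (hb : bm Bk 0 0 = 0) {x : ℝ}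
    (hx : A.h / 2 ≤ x) (hx1 : n.lam1 - c ≤ x) {ε : ℝ} (hε : 0 < ε) :
    ∀ᶠ m in atTop, (H.θ m).lam ≤ x + ε := by
  obtain ⟨A', hA'⟩ := H.a_le
  have h12 : n.lam2 ≤ x := by linarith [n.sum A, n.lam2_le]
  obtain ⟨K, hK⟩ := H.clos.trace_le h12 (Or.inr ⟨hb, hx1⟩) hA'
  filter_upwards [H.clos.upper hx hK hε, H.θ_lam, H.clos.lm_atTop.eventually_gt_atTop 0,
    H.clos.d_ne] with m h1 h2 h3 h4
  rw [h2, div_le_iff₀ h3]
  calc Real.log (rad (H.t m) (H.d m)) ≤ Real.log (Real.exp ((x + ε) * H.lm m)) :=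
        Real.log_le_log (rad_pos' h4) h1
    _ = (x + ε) * H.lm m := Real.log_exp _

end CloseT

/-! ### exponents of typed orbits -/

variable {A : Area L} {T : Tens L} {k₀ : ℕ}

theorem tri_eq {o : Orb L} (n : Nor L o) {μ a : ℝ} {k : ℕ} (h : n.N = .tri μ μ a k) :
    n.lam2 = n.lam1 := by
  unfold Nor.lam1 Nor.lam2
  rw [h]
  rfl

theorem lam_of_split (p : Typed A T k₀) (h : p.t.n.N.Split) : A.h / 2 < p.o.lam := by
  have h1 := (p.t.n.split_iff_lam).1 h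
  have h2 := p.t.n.sum A
  rw [← p.t.n.lam1_eq]
  linarith

theorem lam_of_half (p : Typed A T k₀) (h : p.t.IsC ∨ p.t.IsJ) :
    p.o.lam = A.h / 2 ∧ p.t.χ = A.h / 2 ∧ p.t.n.lam2 = p.t.n.lam1 := by
  have h1 : p.t.n.lam2 = p.t.n.lam1 ∧ p.t.χ = A.h / 2 := by
    rcases h with ⟨⟨μ, k, hN⟩, -, hχ⟩ | ⟨⟨μ, a, -, hN⟩, -, hχ⟩
    · exact ⟨tri_eq _ hN, hχ⟩
    · exact ⟨tri_eq _ hN, hχ⟩
  have h2 := p.t.n.sum A
  refine ⟨?_, h1.2, h1.1⟩
  rw [← p.t.n.lam1_eq]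
  linarith [h1.1]

/-- the exponent of a typed orbit in terms of `χ` -/
theorem lam_chi (p : Typed A T k₀) : p.o.lam = p.t.χ ∨ p.o.lam = A.h - p.t.χ := by
  rcases p.type with h | h | h | h
  · right
    rw [h.2.2, ← p.t.n.lam1_eq]
    linarith [p.t.n.sum A]
  · left
    rw [h.2.2.2, p.t.n.lam1_eq]
  · left
    obtain ⟨h1, h2, -⟩ := lam_of_half p (Or.inl h)
    rw [h1, h2]
  · left
    obtain ⟨h1, h2, -⟩ := lam_of_half p (Or.inr h)
    rw [h1, h2]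

theorem typed_lam (o : Orb L) (p : Typed A T k₀) (h : p.o.β = o.β ∨ p.o.β = o.β * o.β) :
    p.o.lam = o.lam := by
  rcases h with h | h
  · exact Orb.lam_unique o p.o h
  · rw [Orb.lam_unique o.sqr p.o h, Orb.lam_sqr]

theorem eventually_eq_of_finite {s : Set ℝ} (hs : s.Finite) {u : ℕ → ℝ} {x : ℝ}
    (hu : ∀ᶠ m in atTop, u m ∈ s) (hx : Tendsto u atTop (𝓝 x)) : ∀ᶠ m in atTop, u m = x := by
  have h1 : (s \ {x})ᶜ ∈ 𝓝 x :=
    (hs.subset Set.sdiff_subset).isClosed.isOpen_compl.mem_nhds (by simp)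
  filter_upwards [hu, hx h1] with m hm hm1
  by_contra hne
  exact hm1 ⟨hm, hne⟩

/-- **4.5, the choice of `β`** -/
theorem choice (hT : Types A T k₀)
    (hFV : (∃ p : Typed A T k₀, p.t.IsS ∨ p.t.IsC ∨ (p.t.IsF ∧ p.t.n.lam1 < 2 * p.t.n.lam2)) →
      FV A T k₀)
    (p : Typed A T k₀) (hp : ¬ p.t.IsF) (θ : ℕ → Orb L)
    (hlim : Tendsto (fun m => (θ m).lam) atTop (𝓝 p.o.lam)) :
    ∀ᶠ m in atTop, (θ m).lam = p.o.lam := by
  by_cases hex : ∃ p : Typed A T k₀, p.t.IsS ∨ p.t.IsC ∨ (p.t.IsF ∧ p.t.n.lam1 < 2 * p.t.n.lam2)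
  · have hfin : {χ : ℝ | ∃ p : Typed A T k₀, p.t.χ = χ}.Finite := hFV hex
    refine eventually_eq_of_finite (hfin.union (hfin.image fun x => A.h - x)) ?_ hlim
    refine Filter.Eventually.of_forall fun m => ?_
    obtain ⟨q, hq, -⟩ := hT (θ m)
    rw [← typed_lam (θ m) q hq]
    rcases lam_chi q with h1 | h1
    · exact Or.inl ⟨q, h1.symm⟩
    · exact Or.inr ⟨q.t.χ, ⟨q, rfl⟩, h1.symm⟩
  · have hpJ : p.t.IsJ := by
      rcases p.type with h1 | h1 | h1 | h1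
      · exact absurd h1 hp
      · exact absurd ⟨p, Or.inl h1⟩ hex
      · exact absurd ⟨p, Or.inr (Or.inl h1)⟩ hex
      · exact h1
    have hl := (lam_of_half p (Or.inr hpJ)).1
    have hpos := A.h_pos
    have h3 : p.o.lam < 2 / 3 * A.h := by
      rw [hl]
      linarith
    filter_upwards [hlim.eventually (eventually_lt_nhds h3)] with m hm1
    obtain ⟨q, hq, -⟩ := hT (θ m)
    have hq2 := typed_lam (θ m) q hq
    rw [← hq2, hl]
    rcases q.type with h1 | h1 | h1 | h1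
    · refine absurd ⟨q, Or.inr (Or.inr ⟨h1, ?_⟩)⟩ hex
      have h4 := q.t.n.sum A
      rw [← hq2, ← q.t.n.lam1_eq] at hm1
      linarith
    · exact absurd ⟨q, Or.inl h1⟩ hex
    · exact absurd ⟨q, Or.inr (Or.inl h1)⟩ hex
    · exact (lam_of_half q (Or.inr h1)).1

/-! ### exactness -/

theorem bm_apply (M : E2 →L[ℝ] E2) (v : E2) (i : Fin 2) :
    M v i = bm M i 0 * v 0 + bm M i 1 * v 1 := by
  conv_lhs => rw [H969.vec_eq v]
  rw [map_add, map_smul, map_smul]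
  simp only [PiLp.add_apply, PiLp.smul_apply, smul_eq_mul, bm]
  ring

theorem bm_det (M : E2 →L[ℝ] E2) : M.det = bm M 0 0 * bm M 1 1 - bm M 0 1 * bm M 1 0 :=
  H319.det_eq M

/-- row `i` of `B_k` is `s` times row `i` of the identity -/
theorem row_eq {M : E2 →L[ℝ] E2} {i : Fin 2} {s : ℝ} (h : ∀ v : E2, (M v) i = s * v i) :
    bm M i 0 = (if i = 0 then s else 0) ∧ bm M i 1 = (if i = 1 then s else 0) := by
  constructor
  · unfold bm
    rw [h]
    fin_cases i <;> simp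
  · unfold bm
    rw [h]
    fin_cases i <;> simp

theorem line_of_row {M : E2 →L[ℝ] E2} {p q s : ℝ} (h0 : p * bm M 0 0 + q * bm M 1 0 = s * p)
    (h1 : p * bm M 0 1 + q * bm M 1 1 = s * q) :
    H969.lin p q ∘L M = s • H969.lin p q := by
  ext v
  rw [ContinuousLinearMap.comp_apply, H969.lin_apply, bm_apply, bm_apply]
  simp only [_root_.smul_apply, smul_eq_mul, H969.lin_apply]
  linear_combination v 0 * h0 + v 1 * h1

/-- exactness, type S -/
theorem line_S {o : Orb L} {n : Nor L o} {c : ℝ} {k : Γ} {μ₁ μ₂ a : ℝ} {j : ℕ}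
    {M : E2 →L[ℝ] E2} (H : CloseT A n c k μ₁ μ₂ a j M) (h12 : n.lam2 < n.lam1)
    (hreg : ∃ s : ℝ, s ≠ 0 ∧ ∀ v : E2, (M v) 0 = s * v 0)
    (ch : ∀ θ : ℕ → Orb L, Tendsto (fun m => (θ m).lam) atTop (𝓝 o.lam) →
      ∀ᶠ m in atTop, (θ m).lam = o.lam) :
    ∃ s : ℝ, Real.exp (n.lam1 * (L.lv (L.hol o.neg (k • o.x)) - L.lv o.x)) ≤ |s| ∧
      H969.lin 1 0 ∘L M = s • H969.lin 1 0 := by
  obtain ⟨s, hs, hrow⟩ := hreg
  obtain ⟨h0, h1⟩ := row_eq hrow
  simp only [if_true, Fin.isValue, zero_ne_one, if_false] at h0 h1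
  obtain ⟨A', hA'⟩ := H.a_le
  have h2 := H.rad_freq (ch H.θ (H.lim_hyp h12 (by rw [h0]; exact hs)))
  have hsum := n.sum A
  have h3 := H.clos.exact_hyp h12 (by linarith) (H.clos.a_small h12 hA') h2
  refine ⟨s, ?_, line_of_row ?_ ?_⟩
  · rw [← h3, h0]
  · rw [h0]
    ring
  · rw [h1]
    ring

/-- exactness, scalar type -/
theorem line_C {o : Orb L} {n : Nor L o} {c : ℝ} {k : Γ} {μ : ℝ} {j : ℕ}
    {M : E2 →L[ℝ] E2} (H : CloseT A n c k μ μ 0 j M) (h12 : n.lam2 = n.lam1)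
    (hreg : ∃ s : ℝ, s ≠ 0 ∧ ∀ v : E2, (M v) 1 = s * v 1)
    (ch : ∀ θ : ℕ → Orb L, Tendsto (fun m => (θ m).lam) atTop (𝓝 o.lam) →
      ∀ᶠ m in atTop, (θ m).lam = o.lam) :
    ∃ s : ℝ, Real.exp (n.lam1 * (L.lv (L.hol o.neg (k • o.x)) - L.lv o.x)) ≤ |s| ∧
      H969.lin 0 1 ∘L M = s • H969.lin 0 1 := by
  obtain ⟨s, hs, hrow⟩ := hreg
  obtain ⟨h0, h1⟩ := row_eq hrow
  simp only [if_true, Fin.isValue, one_ne_zero, if_false] at h0 h1
  have h2 := H.rad_freq (ch H.θ (H.lim_half h12))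
  have h3 := H.clos.exact_trace (H.clos.scalar_aux (H.a_zero rfl)) h2
  have hsum := n.sum A
  have hdet := H.clos.abs_det hsum
  rw [h0, mul_zero, sub_zero] at hdet h3
  have h4 := (roots_of_rad (Real.exp_pos _) (by
    rw [hdet, ← Real.exp_nat_mul, ← hsum, h12]
    congr 1
    push_cast
    ring) h3).2
  refine ⟨s, ?_, line_of_row ?_ ?_⟩
  · rw [← h4, h1]
  · rw [h0]
    ring
  · rw [h1]
    ring

/-- exactness, Jordan type -/
theorem line_J {o : Orb L} {n : Nor L o} {c : ℝ} {k : Γ} {μ a : ℝ}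
    {M : E2 →L[ℝ] E2} (H : CloseT A n c k μ μ a 1 M) (ha : a ≠ 0) (h12 : n.lam2 = n.lam1)
    (ch : ∀ θ : ℕ → Orb L, Tendsto (fun m => (θ m).lam) atTop (𝓝 o.lam) →
      ∀ᶠ m in atTop, (θ m).lam = o.lam) :
    ∃ s : ℝ, Real.exp (n.lam1 * (L.lv (L.hol o.neg (k • o.x)) - L.lv o.x)) ≤ |s| ∧
      H969.lin 0 1 ∘L M = s • H969.lin 0 1 := by
  have h2 := H.rad_freq (ch H.θ (H.lim_half h12))
  have hμ := H.clos.mu1_ne
  obtain ⟨h3, h4⟩ := H.clos.exact_jordan (div_ne_zero ha hμ) (H.a_one rfl) (n.sum A) h12 h2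
  refine ⟨bm M 1 1, h4.ge, line_of_row ?_ ?_⟩
  · rw [h3]
    ring
  · ring

/-- **P16 = 4.5 (Case 1)**: all closed orbits are of type F. Hypotheses: types (4.2), finitely
many values (4.4), forward coordinates and closing (1.4, 1.5), regularity of the homoclinics for
the types S and scalar (4.2). -/
theorem case1 {c : ℝ} (hT : Types A T k₀)
    (hFV : (∃ p : Typed A T k₀, p.t.IsS ∨ p.t.IsC ∨ (p.t.IsF ∧ p.t.n.lam1 < 2 * p.t.n.lam2)) →
      FV A T k₀)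
    (hFwd : ∀ p : Typed A T k₀, Nonempty (H147.Fwd p.o p.t.n.x p.t.n.N.fn c))
    (hClose : ∀ (p : Typed A T k₀) (W : H147.Fwd p.o p.t.n.x p.t.n.N.fn c) (k : Γ)
      (μ₁ μ₂ a : ℝ) (j : ℕ), k • p.o.pos ≠ p.o.neg → p.t.n.N = .tri μ₁ μ₂ a j →
      Nonempty (CloseT A p.t.n c k μ₁ μ₂ a j (W.Bm k)))
    (hReg : ∀ (p : Typed A T k₀) (W : H147.Fwd p.o p.t.n.x p.t.n.N.fn c) (k : Γ),
      (p.t.IsS ∨ p.t.IsC) → k • p.o.pos ≠ p.o.neg →
      ∃ s : ℝ, s ≠ 0 ∧ ∀ v : E2, (W.Bm k v) p.t.i = s * v p.t.i) :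
    ∀ p : Typed A T k₀, p.t.IsF := by
  intro p
  by_contra hp
  have ch := choice hT hFV p hp
  obtain ⟨W⟩ := hFwd p
  have key : ∃ (χ p' q' : ℝ) (_ : p' ≠ 0 ∨ q' ≠ 0), A.h ≤ 2 * χ ∧
      ∀ k : Γ, k • p.o.pos ≠ p.o.pos → k • p.o.pos ≠ p.o.neg → ∃ s : ℝ,
        Real.exp (χ * (L.lv (L.hol p.o.neg (k • p.o.x)) - L.lv p.o.x)) ≤ |s| ∧
        H969.lin p' q' ∘L W.Bm k = s • H969.lin p' q' := by
    have hsum := p.t.n.sum A
    rcases p.type with h1 | h1 | h1 | h1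
    · exact absurd h1 hp
    · have h1' := h1
      obtain ⟨hsplit, ⟨μ₁, μ₂, j, hN⟩, hi, -⟩ := h1
      have h12 := (p.t.n.split_iff_lam).1 hsplit
      refine ⟨p.t.n.lam1, 1, 0, Or.inl one_ne_zero, by linarith, fun k _ hk => ?_⟩
      obtain ⟨H⟩ := hClose p W k μ₁ μ₂ 0 j hk hN
      have hr := hReg p W k (Or.inl h1') hk
      rw [hi] at hr
      exact line_S H h12 hr ch
    · have h1' := h1
      obtain ⟨⟨μ, j, hN⟩, hi, -⟩ := h1
      have h12 := tri_eq _ hN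
      refine ⟨p.t.n.lam1, 0, 1, Or.inr one_ne_zero, by linarith, fun k _ hk => ?_⟩
      obtain ⟨H⟩ := hClose p W k μ μ 0 j hk hN
      have hr := hReg p W k (Or.inr h1') hk
      rw [hi] at hr
      exact line_C H h12 hr ch
    · obtain ⟨⟨μ, a, ha, hN⟩, hi, -⟩ := h1
      have h12 := tri_eq _ hN
      refine ⟨p.t.n.lam1, 0, 1, Or.inr one_ne_zero, by linarith, fun k _ hk => ?_⟩
      obtain ⟨H⟩ := hClose p W k μ μ a 1 hk hN
      exact line_J H ha h12 ch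
  obtain ⟨χ, p', q', hpq, hχ, hline⟩ := key
  exact (H969.lineCase_exact p.t.n hpq (H310.G_cont W) (fun _ hy => H310.G_det W hy)
    (fun y k hy hk _ => H310.Bm_eq W k hy hk) hline).false A hχ

/-! ### 4.6 (i) -/

theorem tri_of_split {N : NF} (h : N.Split) : ∃ μ₁ μ₂ a j, N = .tri μ₁ μ₂ a j := by
  cases N with
  | tri μ₁ μ₂ a j => exact ⟨μ₁, μ₂, a, j, rfl⟩
  | cx c s => exact absurd h (lt_irrefl _)

/-- **4.6 (i)**. If all closed orbits are of type F, there is a closed orbit `o₀` such that all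
homoclinics of every typed closed orbit with the same exponent (for instance a power of `o₀`, or of
the orbit with the opposite orientation) are regular: `(B_κ)₁₁ ≠ 0`. -/
theorem regular {c : ℝ} (hc : 0 < c) (o : Orb L) (hT : Types A T k₀)
    (hF : ∀ p : Typed A T k₀, p.t.IsF)
    (hClose : ∀ (p : Typed A T k₀) (W : H147.Fwd p.o p.t.n.x p.t.n.N.fn c) (k : Γ)
      (μ₁ μ₂ a : ℝ) (j : ℕ), k • p.o.pos ≠ p.o.neg → p.t.n.N = .tri μ₁ μ₂ a j →
      Nonempty (CloseT A p.t.n c k μ₁ μ₂ a j (W.Bm k)))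
    (hReg : ∀ (p : Typed A T k₀) (W : H147.Fwd p.o p.t.n.x p.t.n.N.fn c) (k : Γ),
      p.t.IsF → p.t.n.lam1 < 2 * p.t.n.lam2 → k • p.o.pos ≠ p.o.neg → bm (W.Bm k) 0 0 ≠ 0) :
    ∃ o₀ : Orb L, ∀ q : Typed A T k₀, q.o.lam = o₀.lam →
      ∀ (W : H147.Fwd q.o q.t.n.x q.t.n.N.fn c) (k : Γ), k • q.o.pos ≠ q.o.neg →
      bm (W.Bm k) 0 0 ≠ 0 := by
  by_cases hex : ∃ p : Typed A T k₀, p.t.n.lam1 < 2 * p.t.n.lam2
  · obtain ⟨p, hp⟩ := hex
    refine ⟨p.o, fun q hq W k hk => hReg q W k (hF q) ?_ hk⟩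
    have h1 := p.t.n.sum A
    have h2 := q.t.n.sum A
    rw [← q.t.n.lam1_eq, ← p.t.n.lam1_eq] at hq
    linarith
  · push Not at hex
    have hpos := A.h_pos
    have h23 : ∀ o : Orb L, 2 / 3 * A.h ≤ o.lam := by
      intro o
      obtain ⟨q, hq, -⟩ := hT o
      rw [← typed_lam o q hq, ← q.t.n.lam1_eq]
      linarith [hex q, q.t.n.sum A]
    have hbdd : BddBelow (range fun o : Orb L => o.lam) :=
      ⟨2 / 3 * A.h, by rintro _ ⟨o, rfl⟩; exact h23 o⟩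
    have hne : (range fun o : Orb L => o.lam).Nonempty := ⟨_, o, rfl⟩
    obtain ⟨_, ⟨o₀, rfl⟩, hlt⟩ := exists_lt_of_csInf_lt hne
      (lt_add_of_pos_right (sInf (range fun o : Orb L => o.lam)) (half_pos hc))
    have hinf : ∀ o : Orb L, o₀.lam - c / 2 ≤ o.lam := by
      intro o
      have := csInf_le hbdd ⟨o, rfl⟩
      simp only at this hlt
      linarith
    refine ⟨o₀, fun q hq W k hk hb => ?_⟩
    obtain ⟨μ₁, μ₂, a, j, hN⟩ := tri_of_split (hF q).1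
    obtain ⟨H⟩ := hClose q W k μ₁ μ₂ a j hk hN
    rw [← q.t.n.lam1_eq] at hq
    have h1 := H.irregular hb (x := max (A.h / 2) (q.t.n.lam1 - c)) (le_max_left _ _)
      (le_max_right _ _) (ε := min (c / 4) (A.h / 12)) (by positivity)
    obtain ⟨m, hm⟩ := h1.exists
    have h2 := hinf (H.θ m)
    have h3 := h23 (H.θ m)
    have h4 : min (c / 4) (A.h / 12) ≤ c / 4 := min_le_left _ _
    have h5 : min (c / 4) (A.h / 12) ≤ A.h / 12 := min_le_right _ _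
    rcases max_cases (A.h / 2) (q.t.n.lam1 - c) with ⟨h6, h7⟩ | ⟨h6, h7⟩ <;> rw [h6] at hm <;>
      linarith

end H319

end Vale.Agent.P207.N3
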