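import Mathlib

/-!
# P207, line N3: trace asymptotics for closing orbits (4.5, 4.6 (i), exactness)

`rad t d` is the spectral radius of a real `2 × 2` matrix with trace `t` and determinant `d > 0`.
-/

open Filter Topology

noncomputable section

namespace Vale.Agent.P207.N3.H319

/-- spectral radius of a real `2 × 2` matrix with trace `t` and determinant `d > 0` -/
def rad (t d : ℝ) : ℝ := if t ^ 2 ≤ 4 * d then √d else (|t| + √(t ^ 2 - 4 * d)) / 2

theorem rad_of_le {t d : ℝ} (h : t ^ 2 ≤ 4 * d) : rad t d = √d := if_pos h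

theorem rad_of_lt {t d : ℝ} (h : 4 * d < t ^ 2) : rad t d = (|t| + √(t ^ 2 - 4 * d)) / 2 :=
  if_neg (not_le.2 h)

theorem rad_neg (t d : ℝ) : rad (-t) d = rad t d := by
  unfold rad
  rw [neg_sq, abs_neg]

theorem two_sqrt_lt {t d : ℝ} (hd : 0 ≤ d) (h : 4 * d < t ^ 2) : 2 * √d < |t| := by
  have h1 : (2 * √d) ^ 2 < |t| ^ 2 := by
    rw [mul_pow, Real.sq_sqrt hd, sq_abs]
    linarith
  exact lt_of_pow_lt_pow_left₀ 2 (abs_nonneg t) h1

theorem sqrt_le_rad {t d : ℝ} (hd : 0 ≤ d) : √d ≤ rad t d := by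
  by_cases h : t ^ 2 ≤ 4 * d
  · rw [rad_of_le h]
  · rw [rad_of_lt (not_le.1 h)]
    have h1 := two_sqrt_lt hd (not_le.1 h)
    have h2 := Real.sqrt_nonneg (t ^ 2 - 4 * d)
    linarith

theorem rad_pos {t d : ℝ} (hd : 0 < d) : 0 < rad t d :=
  (Real.sqrt_pos.2 hd).trans_le (sqrt_le_rad hd.le)

theorem rad_nonneg (t d : ℝ) : 0 ≤ rad t d := by
  unfold rad
  split_ifs
  · exact Real.sqrt_nonneg d
  · have := Real.sqrt_nonneg (t ^ 2 - 4 * d)
    have := abs_nonneg t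
    linarith

/-- the eigenvalue equation: if `4 d ≤ t²` then `|t| = ρ + d / ρ` -/
theorem abs_eq {t d : ℝ} (hd : 0 < d) (h : 4 * d ≤ t ^ 2) : |t| = rad t d + d / rad t d := by
  rcases h.eq_or_lt with he | hl
  · have h1 : rad t d = √d := rad_of_le he.symm.le
    have h2 : |t| = 2 * √d := by
      have h3 : |t| ^ 2 = (2 * √d) ^ 2 := by
        rw [mul_pow, Real.sq_sqrt hd.le, sq_abs]
        linarith
      exact (sq_eq_sq₀ (abs_nonneg t) (by positivity)).1 h3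
    rw [h1, h2, Real.div_sqrt]
    ring
  · have h1 := rad_of_lt hl
    set s := √(t ^ 2 - 4 * d) with hs
    have hs2 : s ^ 2 = t ^ 2 - 4 * d := Real.sq_sqrt (by linarith)
    have hpos : 0 < rad t d := rad_pos hd
    have h3 : rad t d * (|t| - rad t d) = d := by
      rw [h1]
      have : |t| ^ 2 = t ^ 2 := sq_abs t
      nlinarith
    have h4 : |t| - rad t d = d / rad t d := by
      field_simp
      linarith
    linarith

theorem abs_le {t d : ℝ} (hd : 0 < d) : |t| ≤ rad t d + d / rad t d := by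
  rcases le_total (4 * d) (t ^ 2) with h | h
  · exact (abs_eq hd h).le
  · rw [rad_of_le h, Real.div_sqrt]
    have h1 : |t| ^ 2 ≤ (2 * √d) ^ 2 := by
      rw [mul_pow, Real.sq_sqrt hd.le, sq_abs]
      linarith
    have h2 := le_of_sq_le_sq h1 (by positivity)
    linarith

theorem abs_le_two_rad {t d : ℝ} (hd : 0 < d) : |t| ≤ 2 * rad t d := by
  have h1 := abs_le (t := t) hd
  have h2 := sqrt_le_rad (t := t) hd.le
  have h3 := rad_pos (t := t) hd
  have h4 : d / rad t d ≤ rad t d := by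
    rw [div_le_iff₀ h3, ← sq]
    exact (Real.sqrt_le_left h3.le).1 h2
  linarith

/-- `ρ ≤ |t| + √d` -/
theorem rad_le {t d : ℝ} (hd : 0 ≤ d) : rad t d ≤ |t| + √d := by
  by_cases h : t ^ 2 ≤ 4 * d
  · rw [rad_of_le h]
    linarith [abs_nonneg t]
  · rw [rad_of_lt (not_le.1 h)]
    have h1 : √(t ^ 2 - 4 * d) ≤ |t| := by
      rw [← Real.sqrt_sq_eq_abs]
      exact Real.sqrt_le_sqrt (by linarith)
    have := Real.sqrt_nonneg d
    linarith

/-- `ρ = √d` iff the eigenvalues have equal modulus -/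
theorem rad_eq_sqrt_iff {t d : ℝ} (hd : 0 ≤ d) : rad t d = √d ↔ t ^ 2 ≤ 4 * d := by
  refine ⟨fun h => ?_, rad_of_le⟩
  by_contra hc
  have h0 := not_le.1 hc
  rw [rad_of_lt h0] at h
  have h1 := two_sqrt_lt hd h0
  have h2 := Real.sqrt_nonneg (t ^ 2 - 4 * d)
  linarith

theorem rad_smul {t d s : ℝ} (hs : s ≠ 0) : rad (s * t) (s ^ 2 * d) = |s| * rad t d := by
  have hs2 : 0 < s ^ 2 := by positivity
  have hss : √(s ^ 2) = |s| := Real.sqrt_sq_eq_abs s
  by_cases h : t ^ 2 ≤ 4 * d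
  · have h' : (s * t) ^ 2 ≤ 4 * (s ^ 2 * d) := by nlinarith
    rw [rad_of_le h, rad_of_le h', Real.sqrt_mul hs2.le, hss]
  · have h0 := not_le.1 h
    have h' : 4 * (s ^ 2 * d) < (s * t) ^ 2 := by nlinarith
    rw [rad_of_lt h0, rad_of_lt h', abs_mul]
    have h3 : (s * t) ^ 2 - 4 * (s ^ 2 * d) = s ^ 2 * (t ^ 2 - 4 * d) := by ring
    rw [h3, Real.sqrt_mul hs2.le, hss]
    ring

/-- the spectral radius is a continuous function of trace and determinant -/
theorem continuous_rad : Continuous fun p : ℝ × ℝ => rad p.1 p.2 := by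
  have h : (fun p : ℝ × ℝ => rad p.1 p.2) = fun p =>
      if p.1 ^ 2 ≤ 4 * p.2 then √p.2 else (|p.1| + √(p.1 ^ 2 - 4 * p.2)) / 2 := rfl
  rw [h]
  refine Continuous.if_le (by fun_prop) (by fun_prop) (by fun_prop) (by fun_prop) ?_
  rintro ⟨t, d⟩ he
  simp only at he ⊢
  rw [he, sub_self, Real.sqrt_zero, add_zero, ← Real.sqrt_sq_eq_abs, he]
  rw [Real.sqrt_mul (by norm_num : (0:ℝ) ≤ 4)]
  rw [show (4:ℝ) = 2 ^ 2 by norm_num, Real.sqrt_sq (by norm_num : (0:ℝ) ≤ 2)]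
  ring

theorem rad_zero (t : ℝ) : rad t 0 = |t| := by
  by_cases h : t = 0
  · subst h
    rw [rad_of_le (by norm_num), Real.sqrt_zero, abs_zero]
  · rw [rad_of_lt (by rw [mul_zero]; positivity), mul_zero, sub_zero, Real.sqrt_sq_eq_abs]
    ring

/-! ### determinants of any sign -/

theorem rad_of_roots (p q : ℝ) : rad (p + q) (p * q) = max |p| |q| := by
  by_cases h : (p + q) ^ 2 ≤ 4 * (p * q)
  · have h1 : p = q := by nlinarith [sq_nonneg (p - q)]
    subst h1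
    rw [rad_of_le h, max_self]
    exact Real.sqrt_mul_self_eq_abs p
  · rw [rad_of_lt (not_le.1 h)]
    have h1 : (p + q) ^ 2 - 4 * (p * q) = (p - q) ^ 2 := by ring
    rw [h1, Real.sqrt_sq_eq_abs]
    rcases abs_cases (p + q) with ⟨h2, h2'⟩ | ⟨h2, h2'⟩ <;>
      rcases abs_cases (p - q) with ⟨h3, h3'⟩ | ⟨h3, h3'⟩ <;>
      rcases abs_cases p with ⟨h4, h4'⟩ | ⟨h4, h4'⟩ <;>
      rcases abs_cases q with ⟨h5, h5'⟩ | ⟨h5, h5'⟩ <;>
      rw [h2, h3, h4, h5] <;>
      first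
        | (rw [max_eq_left (by linarith)]; linarith)
        | (rw [max_eq_right (by linarith)]; linarith)

theorem sqrt_abs_le_rad (t d : ℝ) : √|d| ≤ rad t d := by
  rcases le_or_gt 0 d with hd | hd
  · rw [abs_of_nonneg hd]
    exact sqrt_le_rad hd
  · rw [rad_of_lt (by nlinarith [sq_nonneg t]), abs_of_neg hd]
    have h1 : √(4 * -d) ≤ √(t ^ 2 - 4 * d) := Real.sqrt_le_sqrt (by nlinarith [sq_nonneg t])
    have h2 : √(4 * -d) = 2 * √(-d) := by
      rw [Real.sqrt_mul (by norm_num : (0:ℝ) ≤ 4), show (4:ℝ) = 2 ^ 2 by norm_num,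
        Real.sqrt_sq (by norm_num : (0:ℝ) ≤ 2)]
    have h3 := abs_nonneg t
    linarith

theorem rad_pos' {t d : ℝ} (hd : d ≠ 0) : 0 < rad t d :=
  (Real.sqrt_pos.2 (abs_pos.2 hd)).trans_le (sqrt_abs_le_rad t d)

theorem abs_le_two_rad' (t d : ℝ) : |t| ≤ 2 * rad t d := by
  by_cases h : t ^ 2 ≤ 4 * d
  · rw [rad_of_le h]
    have hd : 0 ≤ d := by nlinarith [sq_nonneg t]
    have h1 : |t| ^ 2 ≤ (2 * √d) ^ 2 := by
      rw [mul_pow, Real.sq_sqrt hd, sq_abs]
      linarith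
    exact le_of_sq_le_sq h1 (by positivity)
  · rw [rad_of_lt (not_le.1 h)]
    linarith [Real.sqrt_nonneg (t ^ 2 - 4 * d)]

theorem rad_le' (t d : ℝ) : rad t d ≤ |t| + √|d| := by
  by_cases h : t ^ 2 ≤ 4 * d
  · rw [rad_of_le h]
    have hd : 0 ≤ d := by nlinarith [sq_nonneg t]
    rw [abs_of_nonneg hd]
    linarith [abs_nonneg t]
  · rw [rad_of_lt (not_le.1 h)]
    have h1 : √(t ^ 2 - 4 * d) ≤ |t| + 2 * √|d| := by
      rw [Real.sqrt_le_iff]
      refine ⟨by positivity, ?_⟩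
      have h2 : √|d| ^ 2 = |d| := Real.sq_sqrt (abs_nonneg d)
      have h3 : |t| ^ 2 = t ^ 2 := sq_abs t
      have h4 : 0 ≤ |t| * √|d| := by positivity
      have h5 := neg_abs_le d
      nlinarith
    linarith [abs_nonneg t]

/-- eigenvalues `p`, `q` of equal modulus -/
theorem roots_of_rad {p q D : ℝ} (hD : 0 < D) (hpq : |p * q| = D ^ 2)
    (h : rad (p + q) (p * q) = D) : |p| = D ∧ |q| = D := by
  rw [rad_of_roots] at h
  have h1 : |p| ≤ D := (le_max_left _ _).trans h.le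
  have h2 : |q| ≤ D := (le_max_right _ _).trans h.le
  rw [abs_mul] at hpq
  have h3 := abs_nonneg p
  have h4 := abs_nonneg q
  constructor <;> nlinarith

theorem sqrt_exp (x : ℝ) : √(Real.exp x) = Real.exp (x / 2) := by
  rw [Real.sqrt_eq_iff_mul_self_eq (Real.exp_pos _).le (Real.exp_pos _).le, ← Real.exp_add]
  congr 1
  ring

/-- main asymptotics: `t m / s m → b`, `d m / (s m)² → δ` imply `ρ m / |s m| → rad b δ` -/
theorem tendsto_rad {ι : Type*} {F : Filter ι} {t d s : ι → ℝ} {b δ : ℝ} (hs : ∀ i, s i ≠ 0)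
    (ht : Tendsto (fun i => t i / s i) F (𝓝 b))
    (hd : Tendsto (fun i => d i / s i ^ 2) F (𝓝 δ)) :
    Tendsto (fun i => rad (t i) (d i) / |s i|) F (𝓝 (rad b δ)) := by
  have h1 : Tendsto (fun i => rad (t i / s i) (d i / s i ^ 2)) F (𝓝 (rad b δ)) :=
    (continuous_rad.tendsto (b, δ)).comp (ht.prodMk_nhds hd)
  refine h1.congr fun i => ?_
  have h2 := rad_smul (t := t i / s i) (d := d i / s i ^ 2) (hs i)
  rw [mul_div_cancel₀ _ (hs i), mul_div_cancel₀ _ (pow_ne_zero 2 (hs i))] at h2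
  rw [h2, mul_div_cancel_left₀ _ (abs_ne_zero.2 (hs i))]

end Vale.Agent.P207.N3.H319
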