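import Vale.Agent.P207.N3.H969.Line
import Vale.Agent.P207.N3.Top.Defs
import Vale.Agent.P207.N3.H147.Axis
import Vale.Agent.P207.N3.H319.Trace

/-!
# P207, line N3: exponents of closed orbits, intrinsically

For a closed orbit `o` let `o.E` be the derivative at `β⁺` of the expanding map `β⁻¹`, seen in the
chart of the frame `o.x`; `o.lam` is `log (spectral radius of o.E) / l`.

* `Nor.rad_eq`: the spectral radius of `o.E` is `n.N.m1` for each normal coordinate `n`;
  `Nor.lam1_eq : n.lam1 = o.lam`; `Nor.m_mul : n.N.m1 * n.N.m2 = |det o.E|`;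
* `Orb.det_E : |det o.E| = exp (h l)`; hence `Nor.sum : n.lam1 + n.lam2 = h`;
* `Orb.unique`: two closed orbits with the same group element have the same period, and
  `lam_unique`: the same `lam`;
* `lam_sq`: the square of a closed orbit has the same `lam`.
-/

open Set Filter Topology Metric MeasureTheory
open scoped ContDiff

set_option linter.unusedSectionVars false

noncomputable section

namespace Vale.Agent.P207.N3

open H790 (NF)

namespace H319

/-! ### trace and determinant of endomorphisms of the plane -/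

/-- the standard basis -/
abbrev e0 : E2 := EuclideanSpace.single 0 (1 : ℝ)
abbrev e1 : E2 := EuclideanSpace.single 1 (1 : ℝ)

/-- the trace -/
def tr (A : E2 →L[ℝ] E2) : ℝ := LinearMap.trace ℝ E2 (A : E2 →ₗ[ℝ] E2)

theorem toM (A : E2 →L[ℝ] E2) (i j : Fin 2) :
    LinearMap.toMatrix (EuclideanSpace.basisFun (Fin 2) ℝ).toBasis
      (EuclideanSpace.basisFun (Fin 2) ℝ).toBasis (A : E2 →ₗ[ℝ] E2) i j
      = A (EuclideanSpace.single j (1 : ℝ)) i := by
  rw [LinearMap.toMatrix_apply]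
  simp

theorem tr_eq (A : E2 →L[ℝ] E2) : tr A = A e0 0 + A e1 1 := by
  unfold tr
  rw [LinearMap.trace_eq_matrix_trace ℝ (EuclideanSpace.basisFun (Fin 2) ℝ).toBasis,
    Matrix.trace_fin_two, toM, toM]

theorem det_eq (A : E2 →L[ℝ] E2) : A.det = A e0 0 * A e1 1 - A e1 0 * A e0 1 := by
  have h1 : A.det = LinearMap.det (A : E2 →ₗ[ℝ] E2) := rfl
  rw [h1, ← LinearMap.det_toMatrix (EuclideanSpace.basisFun (Fin 2) ℝ).toBasis,
    Matrix.det_fin_two, toM, toM, toM, toM]

theorem det_comp (A C : E2 →L[ℝ] E2) : (A ∘L C).det = A.det * C.det :=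
  LinearMap.det_comp (A : E2 →ₗ[ℝ] E2) (C : E2 →ₗ[ℝ] E2)

theorem tr_comp_comm (A C : E2 →L[ℝ] E2) : tr (A ∘L C) = tr (C ∘L A) :=
  LinearMap.trace_mul_comm ℝ (A : E2 →ₗ[ℝ] E2) (C : E2 →ₗ[ℝ] E2)

/-- the spectral radius of an endomorphism of the plane -/
def rho (A : E2 →L[ℝ] E2) : ℝ := rad (tr A) A.det

theorem rho_conj {A C P Q : E2 →L[ℝ] E2} (hPQ : P ∘L Q = ContinuousLinearMap.id ℝ E2)
    (hQP : Q ∘L P = ContinuousLinearMap.id ℝ E2) (h : C = P ∘L A ∘L Q) : rho C = rho A := by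
  have _ := hPQ
  have h1 : tr C = tr A := by
    rw [h, tr_comp_comm, ContinuousLinearMap.comp_assoc, hQP, ContinuousLinearMap.comp_id]
  have h2 : Q.det * P.det = 1 := by
    rw [← det_comp, hQP]
    exact LinearMap.det_id
  have h3 : C.det = A.det := by
    rw [h, det_comp, det_comp]
    linear_combination A.det * h2
  unfold rho
  rw [h1, h3]

theorem rad_sq (t d : ℝ) : rad (t ^ 2 - 2 * d) (d ^ 2) = rad t d ^ 2 := by
  by_cases h : t ^ 2 ≤ 4 * d
  · have hd : 0 ≤ d := by nlinarith [sq_nonneg t]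
    have h1 : (t ^ 2 - 2 * d) ^ 2 ≤ 4 * d ^ 2 := by nlinarith [sq_nonneg t]
    rw [rad_of_le h, rad_of_le h1, Real.sqrt_sq hd, Real.sq_sqrt hd]
  · have h0 := not_le.1 h
    set s := √(t ^ 2 - 4 * d) with hs
    have hs2 : s ^ 2 = t ^ 2 - 4 * d := Real.sq_sqrt (by linarith)
    have ht : t = (t + s) / 2 + (t - s) / 2 := by ring
    have hd : d = (t + s) / 2 * ((t - s) / 2) := by nlinarith
    have e1 : rad t d = max |(t + s) / 2| |(t - s) / 2| := by
      have h1 := rad_of_roots ((t + s) / 2) ((t - s) / 2)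
      rwa [← ht, ← hd] at h1
    have e2 : rad (t ^ 2 - 2 * d) (d ^ 2) = max |((t + s) / 2) ^ 2| |((t - s) / 2) ^ 2| := by
      have h1 := rad_of_roots (((t + s) / 2) ^ 2) (((t - s) / 2) ^ 2)
      have h2 : ((t + s) / 2) ^ 2 + ((t - s) / 2) ^ 2 = t ^ 2 - 2 * d := by nlinarith
      have h3 : ((t + s) / 2) ^ 2 * ((t - s) / 2) ^ 2 = d ^ 2 := by
        rw [← mul_pow, ← hd]
      rwa [h2, h3] at h1
    rw [e1, e2, abs_pow, abs_pow]
    have h4 := abs_nonneg ((t + s) / 2)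
    have h5 := abs_nonneg ((t - s) / 2)
    rcases le_total |(t + s) / 2| |(t - s) / 2| with h6 | h6
    · rw [max_eq_right h6, max_eq_right (pow_le_pow_left₀ h4 h6 2)]
    · rw [max_eq_left h6, max_eq_left (pow_le_pow_left₀ h5 h6 2)]

theorem rho_sq (A : E2 →L[ℝ] E2) : rho (A ∘L A) = rho A ^ 2 := by
  unfold rho
  rw [← rad_sq]
  congr 1
  · rw [tr_eq, tr_eq, det_eq]
    have key : ∀ v : E2, A v = v 0 • A e0 + v 1 • A e1 := by
      intro v
      conv_lhs => rw [H969.vec_eq v]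
      rw [map_add, map_smul, map_smul]
    simp only [ContinuousLinearMap.comp_apply]
    rw [key (A e0), key (A e1)]
    simp only [PiLp.add_apply, PiLp.smul_apply, smul_eq_mul]
    ring
  · rw [det_comp, sq]

theorem rho_pos {A : E2 →L[ℝ] E2} (h : A.det ≠ 0) : 0 < rho A := rad_pos' h

end H319

variable {Γ X B : Type} [Group Γ] [MetricSpace X] [ProperSpace X] [MulAction Γ X]
  [IsIsometricSMul Γ X] [TopologicalSpace B] [CompactSpace B] [T2Space B] [MulAction Γ B]
  [ContinuousConstSMul Γ B]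

namespace Leaf

variable (L : Leaf Γ X B)

theorem zero_mem_dm {x y : X} (h : L.ep x = L.ep y) : (0 : E2) ∈ L.dm x y :=
  ⟨by simp, 0, by simp, by rw [L.e_zero, L.e_zero, h]⟩

theorem tau_zero {x y : X} (h : L.ep x = L.ep y) : L.τ x y 0 = 0 := by
  rw [L.tau_eq, L.e_zero, h, ← L.e_zero, L.inv_e (by simp)]

/-- chain rule for frames with the same end points -/
theorem fderiv_tau_chain {x y z : X} (hxy : L.em x = L.em y) (hyz : L.em y = L.em z)
    (hxy' : L.ep x = L.ep y) (hyz' : L.ep y = L.ep z) :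
    fderiv ℝ (L.τ x z) 0 = fderiv ℝ (L.τ y z) 0 ∘L fderiv ℝ (L.τ x y) 0 := by
  have h0 := L.zero_mem_dm hxy'
  have h0' := L.zero_mem_dm hyz'
  have h1 := L.tau_diff hxy h0
  have h2 : DifferentiableAt ℝ (L.τ y z) (L.τ x y 0) := by
    rw [L.tau_zero hxy']
    exact L.tau_diff hyz h0'
  have h3 : L.τ x z =ᶠ[𝓝 0] (L.τ y z ∘ L.τ x y) := by
    have h4 : ∀ᶠ u in 𝓝 (0 : E2), L.τ x y u ∈ L.dm y z := by
      refine h1.continuousAt.eventually_mem ?_
      rw [L.tau_zero hxy']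
      exact (L.isOpen_dm y z).mem_nhds h0'
    filter_upwards [(L.isOpen_dm x y).mem_nhds h0, h4] with u hu hu'
    simp only [Function.comp_apply]
    rw [L.tau_eq x z, L.tau_eq y z, L.e_tau hu]
  rw [h3.fderiv_eq, fderiv_comp 0 h2 h1, L.tau_zero hxy']

theorem fderiv_tau_self (x : X) : fderiv ℝ (L.τ x x) 0 = ContinuousLinearMap.id ℝ E2 := by
  have h3 : L.τ x x =ᶠ[𝓝 0] id := by
    filter_upwards [isOpen_ball.mem_nhds (show (0 : E2) ∈ ball (0 : E2) 3 by simp)] with u hu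
    rw [L.tau_eq, L.inv_e (ball_subset_closedBall hu)]
    rfl
  rw [h3.fderiv_eq, fderiv_id]

theorem fderiv_tau_smul0 (g : Γ) {x y : X} (h : L.ep x = L.ep y) :
    fderiv ℝ (L.τ (g • x) (g • y)) 0 = fderiv ℝ (L.τ x y) 0 := by
  have h3 : L.τ (g • x) (g • y) =ᶠ[𝓝 0] L.τ x y := by
    filter_upwards [(L.isOpen_dm x y).mem_nhds (L.zero_mem_dm h)] with u hu
    exact L.tau_smul g hu
  exact h3.fderiv_eq

end Leaf

namespace Orb

variable {L : Leaf Γ X B} (o : Orb L)

theorem em_smul : L.em (o.β • o.x) = L.em o.x := by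
  rw [L.em_smul, H147.Ax.smul_em o.ax]

theorem ep_smul : L.ep (o.β • o.x) = L.ep o.x := by
  rw [L.ep_smul, H147.Ax.smul_ep o.ax]

/-- the derivative at `β⁺` of `β⁻¹`, seen in the chart of the frame `o.x` -/
def E : E2 →L[ℝ] E2 := fderiv ℝ (L.τ o.x (o.β • o.x)) 0

theorem E_comp_ret : o.E ∘L fderiv ℝ o.ret 0 = ContinuousLinearMap.id ℝ E2 := by
  have h := L.fderiv_tau_chain (x := o.β • o.x) (y := o.x) (z := o.β • o.x) o.em_smul
    o.em_smul.symm o.ep_smul o.ep_smul.symm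
  rw [L.fderiv_tau_self] at h
  exact h.symm

theorem ret_comp_E : fderiv ℝ o.ret 0 ∘L o.E = ContinuousLinearMap.id ℝ E2 := by
  have h := L.fderiv_tau_chain (x := o.x) (y := o.β • o.x) (z := o.x) o.em_smul.symm
    o.em_smul o.ep_smul.symm o.ep_smul
  rw [L.fderiv_tau_self] at h
  exact h.symm

/-- the exponent `λ₁` -/
def lam : ℝ := Real.log (H319.rho o.E) / o.l

theorem det_ne : o.E.det ≠ 0 := by
  intro h
  have h1 : (o.E ∘L fderiv ℝ o.ret 0).det = 1 := by
    rw [o.E_comp_ret]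
    exact LinearMap.det_id
  rw [H319.det_comp, h, zero_mul] at h1
  exact zero_ne_one h1

theorem exp_lam : Real.exp (o.lam * o.l) = H319.rho o.E := by
  unfold lam
  rw [div_mul_cancel₀ _ o.ax.pos.ne', Real.exp_log (H319.rho_pos o.det_ne)]

/-- the area -/
theorem abs_det [MeasurableSpace B] [BorelSpace B] (A : Area L) :
    |o.E.det| = Real.exp (A.h * o.l) := by
  have h1 := A.s_trans o.x (o.β • o.x) o.em_smul.symm 0 (L.zero_mem_dm o.ep_smul.symm)
  rw [L.tau_zero o.ep_smul.symm, A.s_smul o.β o.x 0 (by simp)] at h1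
  have h2 : L.lv (o.β • o.x) = L.lv o.x + o.l := by
    rw [o.ax.eq, L.lv_φ, L.lv_rot]
  rw [h2] at h1
  have h3 := A.s_pos o.x 0 (by simp)
  have h4 : Real.exp (A.h * (L.lv o.x - (L.lv o.x + o.l))) * |o.E.det| = 1 := by
    have h5 : A.s o.x 0 * (Real.exp (A.h * (L.lv o.x - (L.lv o.x + o.l))) * |o.E.det|)
        = A.s o.x 0 * 1 := by
      rw [mul_one]
      conv_rhs => rw [h1]
      unfold E
      ring
    exact mul_left_cancel₀ h3.ne' h5
  have h6 : A.h * (L.lv o.x - (L.lv o.x + o.l)) = -(A.h * o.l) := by ring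
  rw [h6, Real.exp_neg] at h4
  field_simp at h4
  exact h4

/-- the spectral radius is at least the square root of the determinant -/
theorem half_le_lam [MeasurableSpace B] [BorelSpace B] (A : Area L) : A.h / 2 ≤ o.lam := by
  have h1 := H319.sqrt_abs_le_rad (H319.tr o.E) o.E.det
  rw [o.abs_det A, H319.sqrt_exp] at h1
  have h2 : Real.exp (A.h * o.l / 2) ≤ Real.exp (o.lam * o.l) := by
    rw [o.exp_lam]
    exact h1
  rw [Real.exp_le_exp] at h2
  have := o.ax.pos
  nlinarith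

/-- the fixed points of `β` -/
theorem fix_eq {ζ : B} (hζ : o.β • ζ = ζ) (hne : ζ ≠ L.em o.x) : ζ = L.ep o.x := by
  by_contra hc
  have hfix : ∀ m : ℕ, o.β ^ m • ζ = ζ := by
    intro m
    induction m with
    | zero => simp
    | succ m ih => rw [pow_succ, mul_smul, hζ, ih]
  obtain ⟨U, V, hU, hV, h1, h2, h3⟩ := t2_separation hc
  have h4 := H147.Ax.north o.ax (isCompact_singleton (x := ζ)) (by
    simpa using fun h => hne h.symm) (hV.mem_nhds h2)
  obtain ⟨m, hm⟩ := h4.exists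
  have h5 := hm ζ rfl
  rw [hfix m] at h5
  exact Set.disjoint_left.1 h3 h1 h5

/-- all points except `β⁻` converge to `β⁺` -/
theorem tendsto {ζ : B} (hne : ζ ≠ L.em o.x) : Tendsto (fun m : ℕ => o.β ^ m • ζ) atTop
    (𝓝 (L.ep o.x)) := by
  intro V hV
  have h4 := H147.Ax.north o.ax (isCompact_singleton (x := ζ)) (by
    simpa using fun h => hne h.symm) hV
  exact h4.mono fun m hm => hm ζ rfl

/-- a third point -/
theorem exists_third (x : X) : ∃ ζ : B, ζ ≠ L.em x ∧ ζ ≠ L.ep x := by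
  refine ⟨L.e x H319.e0, ?_, ?_⟩
  · refine L.e_ne x _ ?_
    simp
  · intro h
    rw [← L.e_zero x] at h
    have h1 := L.e_inj x (by simp) (by simp) h
    have h2 := congrArg (fun v : E2 => v 0) h1
    simp at h2

/-- **uniqueness of the axis** -/
theorem unique (o o' : Orb L) (h : o'.β = o.β) :
    L.em o'.x = L.em o.x ∧ L.ep o'.x = L.ep o.x ∧ o'.l = o.l := by
  have hem : o.β • L.em o'.x = L.em o'.x := by rw [← h]; exact H147.Ax.smul_em o'.ax
  have hep : o.β • L.ep o'.x = L.ep o'.x := by rw [← h]; exact H147.Ax.smul_ep o'.ax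
  have h1 : L.em o'.x = L.em o.x := by
    by_contra hc
    have h2 := o.fix_eq hem hc
    obtain ⟨ζ, hζ1, hζ2⟩ := exists_third (L := L) o.x
    have h3 := o.tendsto hζ1
    have h4 : ζ ≠ L.em o'.x := by rwa [h2]
    have h5 := o'.tendsto h4
    rw [h] at h5
    have h6 := tendsto_nhds_unique h3 h5
    exact L.em_ne_ep o'.x (by rw [h2, h6])
  have h2 : L.ep o'.x = L.ep o.x := by
    refine o.fix_eq hep ?_
    rw [← h1]
    exact (L.em_ne_ep o'.x).symm
  refine ⟨h1, h2, ?_⟩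
  have h3 := H147.Ax.lv_smul o.ax h1
  have h4 := H147.Ax.lv_smul o'.ax (rfl : L.em o'.x = L.em o'.x)
  rw [h] at h4
  linarith

theorem rho_unique (o o' : Orb L) (h : o'.β = o.β) : H319.rho o'.E = H319.rho o.E := by
  obtain ⟨h1, h2, -⟩ := unique o o' h
  have e1 : L.em (o.β • o.x) = L.em (o.β • o'.x) := by rw [L.em_smul, L.em_smul, h1]
  have e2 : L.ep (o.β • o.x) = L.ep (o.β • o'.x) := by rw [L.ep_smul, L.ep_smul, h2]
  have hE : o'.E = fderiv ℝ (L.τ o.x o'.x) 0 ∘L o.E ∘L fderiv ℝ (L.τ o'.x o.x) 0 := by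
    have c1 : o'.E = fderiv ℝ (L.τ o.x (o.β • o'.x)) 0 ∘L fderiv ℝ (L.τ o'.x o.x) 0 := by
      unfold E
      rw [h]
      exact L.fderiv_tau_chain h1 (by rw [← e1, o.em_smul]) h2 (by rw [← e2, o.ep_smul])
    have c2 : fderiv ℝ (L.τ o.x (o.β • o'.x)) 0
        = fderiv ℝ (L.τ (o.β • o.x) (o.β • o'.x)) 0 ∘L o.E :=
      L.fderiv_tau_chain o.em_smul.symm e1 o.ep_smul.symm e2
    rw [c1, c2, L.fderiv_tau_smul0 o.β h2.symm, ContinuousLinearMap.comp_assoc]
  refine H319.rho_conj ?_ ?_ hE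
  · have := L.fderiv_tau_chain (x := o'.x) (y := o.x) (z := o'.x) h1 h1.symm h2 h2.symm
    rw [← this, L.fderiv_tau_self]
  · have := L.fderiv_tau_chain (x := o.x) (y := o'.x) (z := o.x) h1.symm h1 h2.symm h2
    rw [← this, L.fderiv_tau_self]

theorem lam_unique (o o' : Orb L) (h : o'.β = o.β) : o'.lam = o.lam := by
  unfold lam
  rw [rho_unique o o' h, (unique o o' h).2.2]

/-- the square -/
def sqr (o : Orb L) : Orb L where
  β := o.β * o.β
  x := o.x
  l := 2 * o.l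
  a := o.a ^ 2
  ax := by
    have h1 := H147.Ax.pow o.ax (m := 2) two_pos
    rw [sq] at h1
    exact_mod_cast h1

theorem rho_sqr (o : Orb L) : H319.rho o.sqr.E = H319.rho o.E ^ 2 := by
  have e1 : L.em (o.β • o.x) = L.em (o.β • o.β • o.x) := by
    rw [o.em_smul, L.em_smul, o.em_smul, H147.Ax.smul_em o.ax]
  have e2 : L.ep (o.β • o.x) = L.ep (o.β • o.β • o.x) := by
    rw [o.ep_smul, L.ep_smul, o.ep_smul, H147.Ax.smul_ep o.ax]
  have hE : o.sqr.E = o.E ∘L o.E := by
    have c1 : o.sqr.E = fderiv ℝ (L.τ (o.β • o.x) (o.β • o.β • o.x)) 0 ∘L o.E := by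
      have := L.fderiv_tau_chain (x := o.x) (y := o.β • o.x) (z := o.β • o.β • o.x)
        o.em_smul.symm e1 o.ep_smul.symm e2
      rw [← mul_smul] at this
      rw [← mul_smul]
      exact this
    rw [c1, L.fderiv_tau_smul0 o.β o.ep_smul.symm]
    rfl
  rw [hE, H319.rho_sq]

theorem lam_sqr (o : Orb L) : o.sqr.lam = o.lam := by
  unfold lam
  rw [rho_sqr, Real.log_pow]
  have h1 : o.sqr.l = 2 * o.l := rfl
  rw [h1]
  have := o.ax.pos
  field_simp
  push_cast
  ring

end Orb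

namespace H790.NF

/-- the derivative of the normal form at `0` -/
def lin : NF → E2 →L[ℝ] E2
  | tri μ₁ μ₂ a k => LinearMap.toContinuousLinearMap
      (Matrix.toEuclideanLin !![μ₁, if k = 1 then a else 0; 0, μ₂])
  | cx c s => LinearMap.toContinuousLinearMap (Matrix.toEuclideanLin !![c, -s; s, c])

theorem lin_tri (μ₁ μ₂ a : ℝ) (k : ℕ) (v : E2) :
    (tri μ₁ μ₂ a k).lin v = !₂[μ₁ * v 0 + (if k = 1 then a else 0) * v 1, μ₂ * v 1] := by
  ext i
  fin_cases i <;> simp [lin, Matrix.toEuclideanLin, Matrix.toLpLin_apply,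
    dotProduct, Fin.sum_univ_two]

theorem lin_cx (c s : ℝ) (v : E2) :
    (cx c s).lin v = !₂[c * v 0 - s * v 1, s * v 0 + c * v 1] := by
  ext i
  fin_cases i <;> simp [lin, Matrix.toEuclideanLin, Matrix.toLpLin_apply,
    dotProduct, Fin.sum_univ_two]
  ring

theorem hasFDerivAt_zero (N : NF) : HasFDerivAt N.fn N.lin 0 := by
  rw [← hasFDerivWithinAt_univ, hasFDerivWithinAt_euclidean]
  intro i
  rw [hasFDerivWithinAt_univ]
  cases N with
  | tri μ₁ μ₂ a k =>
    have h0 : HasFDerivAt (fun x : E2 => x 0) (EuclideanSpace.proj (𝕜 := ℝ) (0 : Fin 2)) 0 :=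
      (EuclideanSpace.proj (𝕜 := ℝ) (0 : Fin 2)).hasFDerivAt
    have h1 : HasFDerivAt (fun x : E2 => x 1) (EuclideanSpace.proj (𝕜 := ℝ) (1 : Fin 2)) 0 :=
      (EuclideanSpace.proj (𝕜 := ℝ) (1 : Fin 2)).hasFDerivAt
    fin_cases i
    · have h2 := (h0.const_mul μ₁).add ((h1.pow k).const_mul a)
      refine h2.congr_fderiv ?_
      ext v
      simp only [_root_.add_apply, _root_.smul_apply,
        PiLp.proj_apply, ContinuousLinearMap.comp_apply, smul_eq_mul]
      rw [lin_tri]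
      simp only [PiLp.zero_apply, Fin.zero_eta, Fin.isValue]
      rcases k with _ | _ | k
      · simp
      · simp
      · simp
    · refine (h1.const_mul μ₂).congr_fderiv ?_
      ext v
      simp only [_root_.smul_apply,
        PiLp.proj_apply, ContinuousLinearMap.comp_apply, smul_eq_mul]
      rw [lin_tri]
      simp
  | cx c s =>
    have h0 : HasFDerivAt (fun x : E2 => x 0) (EuclideanSpace.proj (𝕜 := ℝ) (0 : Fin 2)) 0 :=
      (EuclideanSpace.proj (𝕜 := ℝ) (0 : Fin 2)).hasFDerivAt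
    have h1 : HasFDerivAt (fun x : E2 => x 1) (EuclideanSpace.proj (𝕜 := ℝ) (1 : Fin 2)) 0 :=
      (EuclideanSpace.proj (𝕜 := ℝ) (1 : Fin 2)).hasFDerivAt
    fin_cases i
    · refine ((h0.const_mul c).sub (h1.const_mul s)).congr_fderiv ?_
      ext v
      simp only [_root_.sub_apply, _root_.smul_apply,
        PiLp.proj_apply, ContinuousLinearMap.comp_apply, smul_eq_mul]
      rw [lin_cx]
      simp
    · refine ((h0.const_mul s).add (h1.const_mul c)).congr_fderiv ?_
      ext v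
      simp only [_root_.add_apply, _root_.smul_apply,
        PiLp.proj_apply, ContinuousLinearMap.comp_apply, smul_eq_mul]
      rw [lin_cx]
      simp

theorem rho_lin {N : NF} (h : N.OK) : H319.rho N.lin = N.m1 := by
  unfold H319.rho
  cases N with
  | tri μ₁ μ₂ a k =>
    rw [H319.tr_eq, H319.det_eq]
    simp only [lin_tri]
    simp only [m1]
    have h1 := H319.rad_of_roots μ₁ μ₂
    rw [max_eq_left h.2.1] at h1
    rw [← h1]
    simp
  | cx c s =>
    rw [H319.tr_eq, H319.det_eq]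
    simp only [lin_cx]
    simp only [m1]
    rw [H319.rad_of_le]
    · congr 1
      simp
      ring
    · simp
      nlinarith [sq_nonneg s]

theorem det_lin {N : NF} : |N.lin.det| = N.m1 * N.m2 := by
  cases N with
  | tri μ₁ μ₂ a k =>
    rw [H319.det_eq]
    simp only [lin_tri, m1, m2]
    rw [← abs_mul]
    simp
  | cx c s =>
    rw [H319.det_eq]
    simp only [lin_cx, m1, m2]
    rw [Real.mul_self_sqrt (by positivity), ← abs_of_nonneg (by positivity : 0 ≤ c ^ 2 + s ^ 2)]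
    congr 1
    simp
    ring

end H790.NF

namespace Nor

variable {L : Leaf Γ X B} {o : Orb L} (n : Nor L o)

/-- the derivative of the normal coordinate at `β⁺` -/
def J0 : E2 →L[ℝ] E2 := fderiv ℝ (fun u => n.x (L.e o.x u)) 0

theorem diffAt {y : X} (hy : L.em y = o.neg) {u : E2} (hu : u ∈ ball (0 : E2) 3) :
    DifferentiableAt ℝ (fun u => n.x (L.e y u)) u :=
  ((n.smooth y hy).differentiableOn (by simp)).differentiableAt (isOpen_ball.mem_nhds hu)

/-- `J₀ E = DN(0) J₀` -/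
theorem J0_E : n.J0 ∘L o.E = n.N.lin ∘L n.J0 := by
  have h1 : (fun u => n.x (L.e o.x (L.τ o.x (o.β • o.x) u))) =ᶠ[𝓝 0]
      fun u => n.N.fn (n.x (L.e o.x u)) := by
    filter_upwards [(L.isOpen_dm o.x (o.β • o.x)).mem_nhds (L.zero_mem_dm o.ep_smul.symm)]
      with u hu
    have h2 := L.e_tau hu
    rw [L.e_smul o.β o.x _ (ball_subset_closedBall (L.tau_mem hu))] at h2
    have h3 : L.e o.x (L.τ o.x (o.β • o.x) u) = o.β⁻¹ • L.e o.x u := by
      rw [← h2, inv_smul_smul]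
    rw [h3]
    exact n.equiv _ (L.e_ne o.x u (ball_subset_closedBall hu.1))
  have h4 : HasFDerivAt (fun u => n.x (L.e o.x (L.τ o.x (o.β • o.x) u))) (n.J0 ∘L o.E) 0 := by
    have h5 := (L.tau_diff o.em_smul.symm (L.zero_mem_dm o.ep_smul.symm)).hasFDerivAt
    have h6 : HasFDerivAt (fun u => n.x (L.e o.x u)) n.J0 (L.τ o.x (o.β • o.x) 0) := by
      rw [L.tau_zero o.ep_smul.symm]
      exact (n.diffAt rfl (by simp)).hasFDerivAt
    exact h6.comp 0 h5
  have h7 : HasFDerivAt (fun u => n.N.fn (n.x (L.e o.x u))) (n.N.lin ∘L n.J0) 0 := by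
    have h8 : HasFDerivAt n.N.fn n.N.lin (n.x (L.e o.x 0)) := by
      have h9 : n.x (L.e o.x 0) = 0 := by rw [L.e_zero]; exact n.base
      rw [h9]
      exact n.N.hasFDerivAt_zero
    exact h8.comp 0 (n.diffAt (y := o.x) rfl (by simp)).hasFDerivAt
  exact h4.unique (h7.congr_of_eventuallyEq h1)

theorem J0_det : n.J0.det ≠ 0 := n.deriv o.x rfl 0 (by simp)

theorem exists_inv {A : E2 →L[ℝ] E2} (h : A.det ≠ 0) : ∃ C : E2 →L[ℝ] E2,
    A ∘L C = ContinuousLinearMap.id ℝ E2 ∧ C ∘L A = ContinuousLinearMap.id ℝ E2 := by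
  have hu : IsUnit (LinearMap.det (A : E2 →ₗ[ℝ] E2)) := isUnit_iff_ne_zero.2 h
  let e := LinearEquiv.ofIsUnitDet (f := (A : E2 →ₗ[ℝ] E2)) (v := (EuclideanSpace.basisFun (Fin 2) ℝ).toBasis)
    (v' := (EuclideanSpace.basisFun (Fin 2) ℝ).toBasis) (by rwa [LinearMap.det_toMatrix])
  refine ⟨LinearMap.toContinuousLinearMap e.symm.toLinearMap, ?_, ?_⟩
  · ext v : 1
    exact e.apply_symm_apply v
  · ext v : 1
    exact e.symm_apply_apply v

/-- the spectral radius -/
theorem rho_eq : H319.rho o.E = n.N.m1 := by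
  obtain ⟨C, h1, h2⟩ := exists_inv n.J0_det
  rw [← NF.rho_lin n.ok]
  refine H319.rho_conj h2 h1 ?_
  rw [← n.J0_E, ← ContinuousLinearMap.comp_assoc, h2, ContinuousLinearMap.id_comp]

theorem det_eq : |o.E.det| = n.N.m1 * n.N.m2 := by
  have h1 : n.J0.det * o.E.det = n.N.lin.det * n.J0.det := by
    rw [← H319.det_comp, ← H319.det_comp, n.J0_E]
  have h2 : o.E.det = n.N.lin.det := by
    have h3 := n.J0_det
    have h4 : n.J0.det * (o.E.det - n.N.lin.det) = 0 := by linear_combination h1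
    have := (mul_eq_zero.1 h4).resolve_left h3
    linarith
  rw [h2, NF.det_lin]

theorem lam1_eq : n.lam1 = o.lam := by
  unfold lam1 Orb.lam
  rw [n.rho_eq]

theorem m1_pos : 0 < n.N.m1 := by
  rw [← n.rho_eq]
  exact H319.rho_pos o.det_ne

theorem m2_pos : 0 < n.N.m2 := by
  have h1 := n.det_eq
  have h2 : 0 < |o.E.det| := abs_pos.2 o.det_ne
  rw [h1] at h2
  exact (mul_pos_iff_of_pos_left n.m1_pos).1 h2

/-- `λ₁ + λ₂ = h` -/
theorem sum [MeasurableSpace B] [BorelSpace B] (A : Area L) : n.lam1 + n.lam2 = A.h := by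
  have h1 := n.det_eq
  rw [o.abs_det A] at h1
  have h2 := congrArg Real.log h1
  rw [Real.log_exp, Real.log_mul n.m1_pos.ne' n.m2_pos.ne'] at h2
  unfold lam1 lam2
  have := o.ax.pos
  rw [← add_div, ← h2]
  field_simp

theorem m2_le : n.N.m2 ≤ n.N.m1 := by
  have h := n.ok
  cases hN : n.N with
  | tri μ₁ μ₂ a k =>
    rw [hN] at h
    exact h.2.1
  | cx c s => exact le_rfl

theorem lam2_le : n.lam2 ≤ n.lam1 := by
  unfold lam1 lam2
  exact div_le_div_of_nonneg_right (Real.log_le_log n.m2_pos n.m2_le) o.ax.pos.le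

theorem split_iff_lam : n.N.Split ↔ n.lam2 < n.lam1 := by
  unfold lam1 lam2 NF.Split
  rw [div_lt_div_iff_of_pos_right o.ax.pos, Real.log_lt_log_iff n.m2_pos n.m1_pos]

theorem exp_lam1 : Real.exp (n.lam1 * o.l) = n.N.m1 := by
  unfold lam1
  rw [div_mul_cancel₀ _ o.ax.pos.ne', Real.exp_log n.m1_pos]

theorem exp_lam2 : Real.exp (n.lam2 * o.l) = n.N.m2 := by
  unfold lam2
  rw [div_mul_cancel₀ _ o.ax.pos.ne', Real.exp_log n.m2_pos]

end Nor

end Vale.Agent.P207.N3
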