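import Vale.Agent.P207.N3.H147.Fwd
import Vale.Agent.P207.N3.H147.Chart

/-!
# P207, line N3, P4b (E3), piece (R)

* `inv_rate`: `‖N^{-m} v‖ ≤ C e^{-χ l m}`, uniformly for `‖v‖ ≤ r`;
* `Phi_small`: the forward coordinates `u ↦ F ζ (e (hol ζ x₀) u)` are bi-Lipschitz at `0` and have
  Lipschitz derivative, uniformly for `ζ` in a compact set.
-/

open Set Filter Topology Metric MeasureTheory
open scoped ContDiff

set_option linter.unusedSectionVars false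

noncomputable section

namespace Vale.Agent.P207.N3

open H790 (NF)

variable {Γ X B : Type} [Group Γ] [MetricSpace X] [ProperSpace X] [MulAction Γ X]
  [IsIsometricSMul Γ X] [TopologicalSpace B] [CompactSpace B] [T2Space B] [MulAction Γ B]
  [ContinuousConstSMul Γ B] {L : Leaf Γ X B} {o : Orb L}

namespace H319

theorem smul_ne_neg (o : Orb L) {η : B} (hη : η ≠ o.neg) : o.β • η ≠ o.neg := by
  intro h
  apply hη
  have h1 : o.β • η = o.β • o.neg := by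
    rw [h]
    exact (H147.Ax.smul_em o.ax).symm
  exact smul_left_cancel _ h1

theorem x_beta (n : Nor L o) {η : B} (hη : η ≠ o.neg) : n.x (o.β • η) = n.N.inv (n.x η) := by
  have h1 := n.equiv (o.β • η) (smul_ne_neg o hη)
  rw [inv_smul_smul] at h1
  rw [h1, H790.NF.inv_fn n.ok]

theorem pow_ne_neg (o : Orb L) {η : B} (hη : η ≠ o.neg) (m : ℕ) : o.β ^ m • η ≠ o.neg := by
  induction m with
  | zero => simpa using hη
  | succ m ih =>
    rw [pow_succ', mul_smul]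
    exact smul_ne_neg o ih

theorem x_beta_pow (n : Nor L o) {η : B} (hη : η ≠ o.neg) (m : ℕ) :
    n.x (o.β ^ m • η) = n.N.inv^[m] (n.x η) := by
  induction m with
  | zero => simp
  | succ m ih =>
    rw [pow_succ', mul_smul, x_beta n (pow_ne_neg o hη m), ih, Function.iterate_succ_apply']

/-- **(R), first half** -/
theorem inv_rate (n : Nor L o) (r : ℝ) : ∃ C, ∀ᶠ m : ℕ in atTop, ∀ v : E2, ‖v‖ ≤ r →
    ‖n.N.inv^[m] v‖ ≤ C * Real.exp (-L.χ * o.l * m) := by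
  have hl := o.ax.pos
  have hχ := L.χ_pos
  -- `β^{m₀}` maps the compact set into the unit disc
  have hK : IsCompact (n.inv '' closedBall 0 r) :=
    (isCompact_closedBall (0 : E2) r).image n.inv_cont
  have hKn : L.em o.x ∉ n.inv '' closedBall 0 r := by
    rintro ⟨z, _, hz⟩
    exact n.inv_ne z hz
  have hV : L.e (L.φ L.t1 o.x) '' ball 0 3 ∈ 𝓝 (L.ep o.x) := by
    refine (L.isOpen_img3 _).mem_nhds ⟨0, mem_ball_self (by norm_num), ?_⟩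
    rw [L.e_zero, H147.ep_φ]
  obtain ⟨m₀, hm₀⟩ := (H147.Ax.north o.ax hK hKn hV).exists
  -- the coordinate is Lipschitz on the unit disc
  have hsm := n.smooth o.x rfl
  obtain ⟨K, hKL⟩ : ∃ K : ℝ, ∀ u ∈ closedBall (0 : E2) 1,
      ‖n.x (L.e o.x u)‖ ≤ K * ‖u‖ := by
    have hd : ∀ u ∈ ball (0 : E2) 3, ContDiffAt ℝ ∞ (fun u => n.x (L.e o.x u)) u :=
      fun u hu => hsm.contDiffAt (isOpen_ball.mem_nhds hu)
    have hc : ContinuousOn (fderiv ℝ fun u => n.x (L.e o.x u)) (closedBall 0 1) := by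
      intro u hu
      have hu3 : u ∈ ball (0 : E2) 3 := closedBall_subset_ball (by norm_num) hu
      exact ((hd u hu3).fderiv_right (m := ∞) (by simp)).continuousAt.continuousWithinAt
    obtain ⟨K, hK⟩ := (isCompact_closedBall (0 : E2) 1).exists_bound_of_continuousOn hc
    refine ⟨K, fun u hu => ?_⟩
    have h1 := (convex_closedBall (0 : E2) 1).norm_image_sub_le_of_norm_fderiv_le
      (𝕜 := ℝ) (f := fun u => n.x (L.e o.x u)) (C := K)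
      (fun w hw => (hd w (closedBall_subset_ball (by norm_num) hw)).differentiableAt (by simp))
      hK (mem_closedBall_self (by norm_num)) hu
    have h2 : n.x (L.e o.x 0) = 0 := by
      rw [L.e_zero]
      exact n.base
    simp only [h2, sub_zero] at h1
    exact h1
  have hK0 : 0 ≤ |K| := abs_nonneg K
  obtain ⟨C, hC1, hC⟩ := H147.R_lip L
  refine ⟨|K| * C * Real.exp (L.χ * o.l * m₀), ?_⟩
  obtain ⟨m₁, hm₁⟩ : ∃ m₁ : ℕ, L.t1 ≤ m₁ * o.l := by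
    obtain ⟨m₁, hm₁⟩ := exists_nat_ge (L.t1 / o.l)
    exact ⟨m₁, by rwa [div_le_iff₀ hl] at hm₁⟩
  filter_upwards [eventually_ge_atTop (m₀ + m₁)] with m hm v hv
  obtain ⟨j, rfl⟩ : ∃ j, m = m₀ + m₁ + j := ⟨m - (m₀ + m₁), by omega⟩
  obtain ⟨u, hu, hue⟩ : o.β ^ m₀ • n.inv v ∈ L.e o.x '' ball 0 1 :=
    L.engulf o.x L.t1 le_rfl (image_mono ball_subset_closedBall
      (hm₀ (n.inv v) ⟨v, by simpa using hv, rfl⟩))
  set t : ℝ := ((m₁ + j : ℕ) : ℝ) * o.l with ht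
  have htt : L.t1 ≤ t := by
    rw [ht]
    push_cast
    have : 0 ≤ (j : ℝ) * o.l := by positivity
    linarith
  have hu3 : u ∈ closedBall (0 : E2) 3 := H147.cb3 (by norm_num) hu
  have hau : (o.a ^ (m₁ + j)) u ∈ closedBall (0 : E2) 3 := H147.isom_mem' hu3
  -- the value of the iterate
  have e1 : n.N.inv^[m₀ + m₁ + j] v
      = n.x (L.e o.x (H147.R L t o.x ((o.a ^ (m₁ + j)) u))) := by
    have h1 : n.N.inv^[m₀ + m₁ + j] v = n.x (o.β ^ (m₀ + m₁ + j) • n.inv v) := by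
      rw [x_beta_pow n (n.inv_ne v), n.inv_right]
    have h2 : o.β ^ (m₀ + m₁ + j) • n.inv v = o.β ^ (m₁ + j) • L.e o.x u := by
      rw [hue, smul_smul, ← pow_add]
      congr 2
      omega
    rw [h1, h2, ← L.e_smul _ _ _ hu3, H147.Ax.pow_smul o.ax, ← L.rot_φ, L.e_rot _ _ _ hu3,
      H147.e_R o.x htt hau]
  rw [e1]
  have h3 : ‖H147.R L t o.x ((o.a ^ (m₁ + j)) u)‖ ≤ C * Real.exp (-L.χ * t) := by
    have h4 := (hC o.x t htt).2 ((o.a ^ (m₁ + j)) u)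
      (H147.isom_mem (ball_subset_ball (by norm_num) hu)) 0 (mem_ball_self (by norm_num))
    rw [H147.R_zero, sub_zero, sub_zero, LinearIsometryEquiv.norm_map] at h4
    have h5 : ‖u‖ ≤ 1 := (mem_ball_zero_iff.1 hu).le
    refine h4.trans ?_
    have : 0 ≤ C * Real.exp (-L.χ * t) := by positivity
    calc C * Real.exp (-L.χ * t) * ‖u‖ ≤ C * Real.exp (-L.χ * t) * 1 := by gcongr
      _ = _ := mul_one _
  have h6 : H147.R L t o.x ((o.a ^ (m₁ + j)) u) ∈ closedBall (0 : E2) 1 :=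
    ball_subset_closedBall (H147.R_mem o.x htt hau)
  calc ‖n.x (L.e o.x (H147.R L t o.x ((o.a ^ (m₁ + j)) u)))‖
      ≤ K * ‖H147.R L t o.x ((o.a ^ (m₁ + j)) u)‖ := hKL _ h6
    _ ≤ |K| * (C * Real.exp (-L.χ * t)) := by
        gcongr
        exact le_abs_self K
    _ = |K| * C * Real.exp (L.χ * o.l * m₀) * Real.exp (-L.χ * o.l * ↑(m₀ + m₁ + j)) := by
        have : Real.exp (-L.χ * t)
            = Real.exp (L.χ * o.l * m₀) * Real.exp (-L.χ * o.l * ↑(m₀ + m₁ + j)) := by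
          rw [← Real.exp_add]
          congr 1
          rw [ht]
          push_cast
          ring
        rw [this]
        ring

theorem fderiv_eq_curry (f : E2 → E2) (u : E2) :
    fderiv ℝ f u = continuousMultilinearCurryFin1 ℝ E2 E2 (iteratedFDeriv ℝ 1 f u) := by
  ext1 v
  rw [continuousMultilinearCurryFin1_apply, iteratedFDeriv_one_apply]
  rfl

/-- uniform lower bound -/
theorem exists_low {K : Set B} (hK : IsCompact K) {A : B → E2 →L[ℝ] E2} (hA : ContinuousOn A K)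
    (hd : ∀ ζ ∈ K, (A ζ).det ≠ 0) : ∃ κ > 0, ∀ ζ ∈ K, ∀ v : E2, κ * ‖v‖ ≤ ‖A ζ v‖ := by
  rcases K.eq_empty_or_nonempty with rfl | hne
  · exact ⟨1, one_pos, fun ζ hζ => absurd hζ (notMem_empty _)⟩
  have hS : IsCompact (K ×ˢ sphere (0 : E2) 1) := hK.prod (isCompact_sphere _ _)
  have hSne : (K ×ˢ sphere (0 : E2) 1).Nonempty := by
    obtain ⟨ζ, hζ⟩ := hne
    exact ⟨(ζ, EuclideanSpace.single 0 1), hζ, by simp⟩
  have hc0 : ContinuousOn (fun p : B × E2 => ‖A p.1 p.2‖) (K ×ˢ sphere (0 : E2) 1) := by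
    have h1 : ContinuousOn (fun p : B × E2 => A p.1) (K ×ˢ sphere (0 : E2) 1) :=
      hA.comp continuousOn_fst fun p hp => hp.1
    exact (h1.clm_apply continuousOn_snd).norm
  obtain ⟨⟨ζ₀, v₀⟩, hp, hmin⟩ := hS.exists_isMinOn hSne hc0
  have hκ0 : 0 < ‖A ζ₀ v₀‖ := by
    rw [norm_pos_iff]
    intro h0
    have hker := (LinearMap.equivOfDetNeZero (A ζ₀ : E2 →ₗ[ℝ] E2) (hd ζ₀ hp.1)).injective
    have h1 : v₀ = 0 := by
      apply hker
      rw [map_zero]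
      exact h0
    have h2 := hp.2
    rw [h1] at h2
    simp at h2
  refine ⟨‖A ζ₀ v₀‖, hκ0, fun ζ hζ v => ?_⟩
  rcases eq_or_ne v 0 with rfl | hv
  · simp
  · have hv' : 0 < ‖v‖ := norm_pos_iff.2 hv
    have hmem : ((ζ, ‖v‖⁻¹ • v) : B × E2) ∈ K ×ˢ sphere (0 : E2) 1 := by
      refine ⟨hζ, ?_⟩
      rw [mem_sphere_zero_iff_norm, norm_smul, norm_inv, norm_norm, inv_mul_cancel₀ hv'.ne']
    have h4 : ‖A ζ₀ v₀‖ ≤ ‖A ζ (‖v‖⁻¹ • v)‖ := by
      have h5 := isMinOn_iff.1 hmin _ hmem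
      exact h5
    rw [map_smul, norm_smul, norm_inv, norm_norm, inv_mul_eq_div, le_div_iff₀ hv'] at h4
    exact h4

/-- the derivative is Lipschitz -/
theorem lip_fderiv {f : E2 → E2} {C₂ : ℝ} (hf : ContDiffOn ℝ ∞ f (ball 0 1))
    (h : ∀ w ∈ closedBall (0 : E2) (1 / 2), ‖iteratedFDeriv ℝ 2 f w‖ ≤ C₂) :
    ∀ u ∈ closedBall (0 : E2) (1 / 2), ‖fderiv ℝ f u - fderiv ℝ f 0‖ ≤ C₂ * ‖u‖ := by
  intro u hu
  have hd : ∀ w ∈ closedBall (0 : E2) (1 / 2), DifferentiableAt ℝ (fderiv ℝ f) w := by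
    intro w hw
    have h1 : ContDiffAt ℝ ∞ f w :=
      hf.contDiffAt (isOpen_ball.mem_nhds (closedBall_subset_ball (by norm_num) hw))
    exact (h1.fderiv_right (m := ∞) (by simp)).differentiableAt (by simp)
  have hb : ∀ w ∈ closedBall (0 : E2) (1 / 2), ‖fderiv ℝ (fderiv ℝ f) w‖ ≤ C₂ := by
    intro w hw
    have h2 := h w hw
    rw [← norm_iteratedFDeriv_fderiv, norm_iteratedFDeriv_one] at h2
    exact h2
  have h1 := (convex_closedBall (0 : E2) (1 / 2)).norm_image_sub_le_of_norm_fderiv_le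
    hd hb (mem_closedBall_self (by norm_num)) hu
  rw [sub_zero] at h1
  exact h1

/-- lower bound near `0` -/
theorem low_of_lip {f : E2 → E2} {κ C₂ : ℝ} (hκ : 0 < κ) (hC₂ : 0 ≤ C₂)
    (hf : ContDiffOn ℝ ∞ f (ball 0 1)) (h0 : f 0 = 0)
    (hlip : ∀ u ∈ closedBall (0 : E2) (1 / 2), ‖fderiv ℝ f u - fderiv ℝ f 0‖ ≤ C₂ * ‖u‖)
    (hlow : ∀ v : E2, κ * ‖v‖ ≤ ‖fderiv ℝ f 0 v‖) {u : E2} (hu1 : ‖u‖ ≤ 1 / 2)
    (hu2 : ‖u‖ ≤ κ / (2 * (C₂ + 1))) : ‖u‖ ≤ 2 / κ * ‖f u‖ := by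
  have h6 : ‖f u - f 0 - fderiv ℝ f 0 (u - 0)‖ ≤ C₂ * ‖u‖ * ‖u - 0‖ := by
    refine (convex_closedBall (0 : E2) ‖u‖).norm_image_sub_le_of_norm_fderiv_le'
      (fun w hw => ?_) (fun w hw => ?_) (mem_closedBall_self (norm_nonneg _))
      (by rw [mem_closedBall_zero_iff])
    · have hw1 : w ∈ ball (0 : E2) 1 := by
        rw [mem_closedBall_zero_iff] at hw
        rw [mem_ball_zero_iff]
        linarith
      exact (hf.contDiffAt (isOpen_ball.mem_nhds hw1)).differentiableAt (by simp)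
    · rw [mem_closedBall_zero_iff] at hw
      have hw2 : w ∈ closedBall (0 : E2) (1 / 2) := by
        rw [mem_closedBall_zero_iff]
        linarith
      exact (hlip w hw2).trans (mul_le_mul_of_nonneg_left hw hC₂)
  rw [h0, sub_zero, sub_zero] at h6
  have h7 := hlow u
  have h8 : ‖fderiv ℝ f 0 u‖ ≤ ‖f u‖ + C₂ * ‖u‖ * ‖u‖ := by
    have e : fderiv ℝ f 0 u = f u - (f u - fderiv ℝ f 0 u) := by abel
    rw [e]
    have h8' := norm_sub_le (f u) (f u - fderiv ℝ f 0 u)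
    linarith
  have h9 : C₂ * ‖u‖ ≤ κ / 2 := by
    have h10 : C₂ * ‖u‖ ≤ (C₂ + 1) * (κ / (2 * (C₂ + 1))) :=
      mul_le_mul (by linarith) hu2 (norm_nonneg _) (by linarith)
    have h11 : (C₂ + 1) * (κ / (2 * (C₂ + 1))) = κ / 2 := by
      have : C₂ + 1 ≠ 0 := by linarith
      field_simp
    linarith
  have hu0 := norm_nonneg u
  have h11 : C₂ * ‖u‖ * ‖u‖ ≤ κ / 2 * ‖u‖ := mul_le_mul_of_nonneg_right h9 hu0
  have h12 : κ / 2 * ‖u‖ ≤ ‖f u‖ := by linarith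
  rw [div_mul_eq_mul_div, le_div_iff₀ hκ]
  linarith

theorem cont_fderiv {Φ : B → E2 → E2} {K : Set B}
    (h : ContinuousOn (fun ζ : B => iteratedFDeriv ℝ 1 (Φ ζ) 0) K) :
    ContinuousOn (fun ζ : B => fderiv ℝ (Φ ζ) 0) K := by
  have h3 := (continuousMultilinearCurryFin1 ℝ E2 E2).continuous.comp_continuousOn h
  have h4 : (fun ζ : B => fderiv ℝ (Φ ζ) 0)
      = (continuousMultilinearCurryFin1 ℝ E2 E2) ∘ fun ζ : B => iteratedFDeriv ℝ 1 (Φ ζ) 0 := by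
    funext ζ
    exact fderiv_eq_curry _ _
  rw [h4]
  exact h3

/-- bi-Lipschitz bounds at `0` for a family of maps -/
theorem family_small {Φ : B → E2 → E2} {U K : Set B} (hK : IsCompact K) (hsub : K ⊆ U)
    (hcd : ∀ ζ ∈ K, ContDiffOn ℝ ∞ (Φ ζ) (ball 0 1)) (h0 : ∀ ζ ∈ K, Φ ζ 0 = 0)
    (hd : ∀ ζ ∈ K, (fderiv ℝ (Φ ζ) 0).det ≠ 0)
    (hc1 : ContinuousOn (fun p : B × E2 => iteratedFDeriv ℝ 1 (Φ p.1) p.2) (U ×ˢ ball 0 1))
    (hc2 : ContinuousOn (fun p : B × E2 => iteratedFDeriv ℝ 2 (Φ p.1) p.2) (U ×ˢ ball 0 1)) :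
    ∃ C > 0, ∃ δ > 0, δ < 1 ∧ ∀ ζ ∈ K, ∀ u : E2, ‖u‖ ≤ δ →
      ‖u‖ ≤ C * ‖Φ ζ u‖ ∧ ‖fderiv ℝ (Φ ζ) u - fderiv ℝ (Φ ζ) 0‖ ≤ C * ‖u‖ := by
  have hK2 : IsCompact (K ×ˢ closedBall (0 : E2) (1 / 2)) := hK.prod (isCompact_closedBall _ _)
  have hsub2 : K ×ˢ closedBall (0 : E2) (1 / 2) ⊆ U ×ˢ ball (0 : E2) 1 :=
    prod_mono hsub (closedBall_subset_ball (by norm_num))
  obtain ⟨C₂, hC₂⟩ := hK2.exists_bound_of_continuousOn (hc2.mono hsub2)
  have hC₂0 : 0 ≤ |C₂| := abs_nonneg C₂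
  have hlip : ∀ ζ ∈ K, ∀ u ∈ closedBall (0 : E2) (1 / 2),
      ‖fderiv ℝ (Φ ζ) u - fderiv ℝ (Φ ζ) 0‖ ≤ |C₂| * ‖u‖ := fun ζ hζ =>
    lip_fderiv (hcd ζ hζ) fun w hw => (hC₂ (ζ, w) ⟨hζ, hw⟩).trans (le_abs_self C₂)
  obtain ⟨κ, hκ, hlow⟩ : ∃ κ > 0, ∀ ζ ∈ K, ∀ v : E2, κ * ‖v‖ ≤ ‖fderiv ℝ (Φ ζ) 0 v‖ := by
    have h2 : ContinuousOn (fun ζ : B => ((ζ, (0 : E2)) : B × E2)) K := by fun_prop
    have hm : MapsTo (fun ζ : B => ((ζ, (0 : E2)) : B × E2)) K (U ×ˢ ball 0 1) :=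
      fun ζ hζ => ⟨hsub hζ, mem_ball_self one_pos⟩
    have h1 := hc1.comp h2 hm
    simp only [Function.comp_def] at h1
    exact exists_low hK (cont_fderiv h1) hd
  have hδ0 : 0 < min (1 / 2) (κ / (2 * (|C₂| + 1))) := lt_min (by norm_num) (by positivity)
  refine ⟨2 / κ + |C₂|, by positivity, min (1 / 2) (κ / (2 * (|C₂| + 1))), hδ0,
    (min_le_left _ _).trans_lt (by norm_num), fun ζ hζ u hu => ?_⟩
  have hu1 : ‖u‖ ≤ 1 / 2 := hu.trans (min_le_left _ _)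
  have hu2 : ‖u‖ ≤ κ / (2 * (|C₂| + 1)) := hu.trans (min_le_right _ _)
  have h5 := hlip ζ hζ u (by rwa [mem_closedBall_zero_iff])
  have h6 := low_of_lip hκ hC₂0 (hcd ζ hζ) (h0 ζ hζ) (hlip ζ hζ) (hlow ζ hζ) hu1 hu2
  have h7 : 0 ≤ |C₂| * ‖Φ ζ u‖ := by positivity
  have h8 : 0 ≤ 2 / κ * ‖u‖ := by positivity
  constructor
  · rw [add_mul]
    linarith
  · rw [add_mul]
    linarith

/-- **(R), second half** -/
theorem Phi_small {x : B → E2} {N : E2 → E2} {c : ℝ} (W : H147.Fwd o x N c) {K : Set B}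
    (hK : IsCompact K) (hKo : o.pos ∉ K) : ∃ C > 0, ∃ δ > 0, δ < 1 ∧ ∀ ζ ∈ K, ∀ u : E2, ‖u‖ ≤ δ →
      ‖u‖ ≤ C * ‖W.F ζ (L.e (L.hol ζ o.x) u)‖ ∧
      ‖fderiv ℝ (fun v => W.F ζ (L.e (L.hol ζ o.x) v)) u
        - fderiv ℝ (fun v => W.F ζ (L.e (L.hol ζ o.x) v)) 0‖ ≤ C * ‖u‖ := by
  have hsub : K ⊆ {o.pos}ᶜ := fun ζ hζ h => hKo (h ▸ hζ)
  exact family_small (Φ := fun ζ v => W.F ζ (L.e (L.hol ζ o.x) v)) hK hsub
    (fun ζ hζ => W.smooth ζ (hsub hζ))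
    (fun ζ hζ => by
      show W.F ζ (L.e (L.hol ζ o.x) 0) = 0
      rw [L.e_zero, L.hol_ep ζ o.x (hsub hζ)]
      exact W.base ζ (hsub hζ))
    (fun ζ hζ => W.deriv ζ (hsub hζ)) (W.cont 1) (W.cont 2)

end H319

end Vale.Agent.P207.N3
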